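import Mathlib

/-!
Row 9 (S0010), task A: `p`-th powers, the ring `L^p[z]` and the relation "equal up to a nonzero
`p`-th power" in a field `L` of characteristic `p`.  Everything is phrased with explicit sums, no
subfields.
-/

namespace Crest.Agent.MilnorRec

open Finset

variable {L : Type*} [Field L] (p : ℕ)

/-- `a` is a `p`-th power. -/
def IsPP (a : L) : Prop := ∃ b : L, b ^ p = a

/-- `w ∈ L^p[z]`, i.e. `w = ∑_{i<p} a_i^p z^i`. -/
def Adj (z w : L) : Prop := ∃ a : ℕ → L, w = ∑ i ∈ range p, a i ^ p * z ^ i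

/-- `u` and `v` differ by a nonzero `p`-th power. -/
def Rel (u v : L) : Prop := ∃ r : L, r ≠ 0 ∧ u = r ^ p * v

/-- the field is not of the form `L^p[x]` -/
def Rich (L : Type*) [Field L] (p : ℕ) : Prop := ∀ x : L, ∃ y : L, ¬ Adj p x y

variable {p}

/-! ### `p`-th powers -/

theorem isPP_pow (a : L) : IsPP p (a ^ p) := ⟨a, rfl⟩

variable [Fact p.Prime] [CharP L p]

omit [CharP L p] in
theorem isPP_zero : IsPP p (0 : L) :=
  ⟨0, zero_pow (Fact.out : p.Prime).ne_zero⟩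

omit [Fact p.Prime] [CharP L p] in
theorem isPP_one : IsPP p (1 : L) := ⟨1, one_pow _⟩

theorem IsPP.add {a b : L} (ha : IsPP p a) (hb : IsPP p b) : IsPP p (a + b) := by
  obtain ⟨a, rfl⟩ := ha
  obtain ⟨b, rfl⟩ := hb
  exact ⟨a + b, add_pow_char a b p⟩

theorem isPP_natCast (n : ℕ) : IsPP p (n : L) := by
  induction n with
  | zero => simpa using (isPP_zero : IsPP p (0 : L))
  | succ n ih => rw [Nat.cast_succ]; exact ih.add isPP_one

omit [Fact p.Prime] [CharP L p] in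
theorem IsPP.mul {a b : L} (ha : IsPP p a) (hb : IsPP p b) : IsPP p (a * b) := by
  obtain ⟨a, rfl⟩ := ha
  obtain ⟨b, rfl⟩ := hb
  exact ⟨a * b, mul_pow a b p⟩

theorem IsPP.neg {a : L} (ha : IsPP p a) : IsPP p (-a) := by
  obtain ⟨a, rfl⟩ := ha
  refine ⟨-a, ?_⟩
  have h := add_pow_char a (-a) p
  rw [add_neg_cancel, zero_pow (Fact.out : p.Prime).ne_zero] at h
  exact (neg_eq_of_add_eq_zero_right h.symm).symm

theorem IsPP.sub {a b : L} (ha : IsPP p a) (hb : IsPP p b) : IsPP p (a - b) := by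
  rw [sub_eq_add_neg]; exact ha.add hb.neg

omit [Fact p.Prime] [CharP L p] in
theorem IsPP.inv {a : L} (ha : IsPP p a) : IsPP p a⁻¹ := by
  obtain ⟨a, rfl⟩ := ha
  exact ⟨a⁻¹, inv_pow a p⟩

omit [Fact p.Prime] [CharP L p] in
theorem IsPP.div {a b : L} (ha : IsPP p a) (hb : IsPP p b) : IsPP p (a / b) := by
  rw [div_eq_mul_inv]; exact ha.mul hb.inv

omit [Fact p.Prime] [CharP L p] in
theorem IsPP.pow {a : L} (ha : IsPP p a) (n : ℕ) : IsPP p (a ^ n) := by
  obtain ⟨a, rfl⟩ := ha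
  exact ⟨a ^ n, by rw [← pow_mul, ← pow_mul, mul_comm]⟩

theorem IsPP.sum {ι : Type*} (s : Finset ι) (f : ι → L) (h : ∀ i ∈ s, IsPP p (f i)) :
    IsPP p (∑ i ∈ s, f i) := by
  classical
  induction s using Finset.induction_on with
  | empty => simpa using (isPP_zero : IsPP p (0 : L))
  | insert a s ha ih =>
    rw [Finset.sum_insert ha]
    exact (h a (Finset.mem_insert_self _ _)).add (ih fun i hi => h i (Finset.mem_insert_of_mem hi))

/-- `p`-th roots are unique -/
theorem pow_p_injective {a b : L} (h : a ^ p = b ^ p) : a = b :=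
  frobenius_inj L p h

/-! ### the ring `L^p[z]` -/

omit [CharP L p] in
theorem Adj.of_isPP {z w : L} (h : IsPP p w) : Adj p z w := by
  obtain ⟨b, rfl⟩ := h
  have hp : p.Prime := Fact.out
  refine ⟨fun i => if i = 0 then b else 0, ?_⟩
  rw [Finset.sum_eq_single 0]
  · simp
  · intro i _ hi
    simp [hi, hp.ne_zero]
  · intro h0
    exact absurd (Finset.mem_range.2 hp.pos) h0

omit [CharP L p] in
/-- every power of `z` lies in `L^p[z]` -/
theorem adj_pow_self (z : L) (n : ℕ) : Adj p z (z ^ n) := by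
  have hp : p.Prime := Fact.out
  refine ⟨fun i => if i = n % p then z ^ (n / p) else 0, ?_⟩
  rw [Finset.sum_eq_single (n % p)]
  · simp only [if_true]
    rw [← pow_mul, ← pow_add, mul_comm, Nat.div_add_mod]
  · intro i _ hi
    simp [hi, hp.ne_zero]
  · intro h0
    exact absurd (Finset.mem_range.2 (Nat.mod_lt _ hp.pos)) h0

omit [CharP L p] in
theorem Adj.self (z : L) : Adj p z z := by
  simpa using adj_pow_self (p := p) z 1

theorem Adj.add {z w w' : L} (h : Adj p z w) (h' : Adj p z w') : Adj p z (w + w') := by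
  obtain ⟨a, rfl⟩ := h
  obtain ⟨b, rfl⟩ := h'
  refine ⟨fun i => a i + b i, ?_⟩
  rw [← Finset.sum_add_distrib]
  refine Finset.sum_congr rfl fun i _ => ?_
  rw [add_pow_char, add_mul]

omit [Fact p.Prime] [CharP L p] in
theorem Adj.pp_mul {z c w : L} (hc : IsPP p c) (h : Adj p z w) : Adj p z (c * w) := by
  obtain ⟨a, rfl⟩ := h
  obtain ⟨c, rfl⟩ := hc
  refine ⟨fun i => c * a i, ?_⟩
  rw [Finset.mul_sum]
  refine Finset.sum_congr rfl fun i _ => ?_
  rw [mul_pow, mul_assoc]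

theorem Adj.neg {z w : L} (h : Adj p z w) : Adj p z (-w) := by
  have := Adj.pp_mul (z := z) (isPP_one (p := p) (L := L)).neg h
  simpa using this

theorem Adj.sub {z w w' : L} (h : Adj p z w) (h' : Adj p z w') : Adj p z (w - w') := by
  rw [sub_eq_add_neg]; exact h.add h'.neg

theorem Adj.sum {ι : Type*} {z : L} (s : Finset ι) (f : ι → L) (h : ∀ i ∈ s, Adj p z (f i)) :
    Adj p z (∑ i ∈ s, f i) := by
  classical
  induction s using Finset.induction_on with
  | empty => simpa using (Adj.of_isPP (z := z) (isPP_zero : IsPP p (0 : L)))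
  | insert a s ha ih =>
    rw [Finset.sum_insert ha]
    exact (h a (Finset.mem_insert_self _ _)).add (ih fun i hi => h i (Finset.mem_insert_of_mem hi))

theorem Adj.mul {z w w' : L} (h : Adj p z w) (h' : Adj p z w') : Adj p z (w * w') := by
  obtain ⟨a, rfl⟩ := h
  obtain ⟨b, rfl⟩ := h'
  rw [Finset.sum_mul_sum]
  refine Adj.sum _ _ fun i _ => Adj.sum _ _ fun j _ => ?_
  have e : a i ^ p * z ^ i * (b j ^ p * z ^ j) = (a i ^ p * b j ^ p) * z ^ (i + j) := by
    rw [pow_add]; ring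
  rw [e]
  exact Adj.pp_mul ((isPP_pow _).mul (isPP_pow _)) (adj_pow_self z _)

theorem Adj.pow {z w : L} (h : Adj p z w) (n : ℕ) : Adj p z (w ^ n) := by
  induction n with
  | zero => simpa using (Adj.of_isPP (z := z) (isPP_one : IsPP p (1 : L)))
  | succ n ih => rw [pow_succ]; exact ih.mul h

/-- `w⁻¹ = (w⁻¹)^p * w^(p-1)` -/
theorem Adj.inv {z w : L} (h : Adj p z w) : Adj p z w⁻¹ := by
  have hp : p.Prime := Fact.out
  by_cases hw : w = 0
  · subst hw
    simpa using (Adj.of_isPP (z := z) (isPP_zero : IsPP p (0 : L)))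
  · have e : w⁻¹ = (w⁻¹) ^ p * w ^ (p - 1) := by
      have h1 : w ^ p = w ^ (p - 1) * w := by
        rw [← pow_succ, Nat.sub_add_cancel hp.one_le]
      rw [inv_pow, h1]
      field_simp
    rw [e]
    exact Adj.pp_mul (isPP_pow _) (h.pow _)

theorem Adj.div {z w w' : L} (h : Adj p z w) (h' : Adj p z w') : Adj p z (w / w') := by
  rw [div_eq_mul_inv]; exact h.mul h'.inv

theorem Adj.trans {x y w : L} (h : Adj p x y) (h' : Adj p y w) : Adj p x w := by
  obtain ⟨a, rfl⟩ := h'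
  exact Adj.sum _ _ fun i _ => Adj.pp_mul (isPP_pow _) (h.pow i)

theorem Adj.isPP_of_isPP {z w : L} (hz : IsPP p z) (h : Adj p z w) : IsPP p w := by
  obtain ⟨a, rfl⟩ := h
  exact IsPP.sum _ _ fun i _ => (isPP_pow _).mul (hz.pow i)

omit [CharP L p] in
theorem not_isPP_of_not_adj {x y : L} (h : ¬ Adj p x y) : ¬ IsPP p y :=
  fun hy => h (Adj.of_isPP hy)

/-! ### the relation `Rel` -/

omit [Fact p.Prime] [CharP L p] in
theorem Rel.refl (u : L) : Rel p u u := ⟨1, one_ne_zero, by simp⟩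

omit [Fact p.Prime] [CharP L p] in
theorem Rel.symm {u v : L} (h : Rel p u v) : Rel p v u := by
  obtain ⟨r, hr, rfl⟩ := h
  refine ⟨r⁻¹, inv_ne_zero hr, ?_⟩
  rw [inv_pow, ← mul_assoc, inv_mul_cancel₀ (pow_ne_zero _ hr), one_mul]

omit [Fact p.Prime] [CharP L p] in
theorem Rel.trans {u v w : L} (h : Rel p u v) (h' : Rel p v w) : Rel p u w := by
  obtain ⟨r, hr, rfl⟩ := h
  obtain ⟨s, hs, rfl⟩ := h'
  exact ⟨r * s, mul_ne_zero hr hs, by rw [mul_pow, mul_assoc]⟩

omit [Fact p.Prime] [CharP L p] in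
theorem Rel.mul {u v u' v' : L} (h : Rel p u v) (h' : Rel p u' v') : Rel p (u * u') (v * v') := by
  obtain ⟨r, hr, rfl⟩ := h
  obtain ⟨s, hs, rfl⟩ := h'
  exact ⟨r * s, mul_ne_zero hr hs, by rw [mul_pow]; ring⟩

omit [Fact p.Prime] [CharP L p] in
theorem Rel.inv {u v : L} (h : Rel p u v) : Rel p u⁻¹ v⁻¹ := by
  obtain ⟨r, hr, rfl⟩ := h
  exact ⟨r⁻¹, inv_ne_zero hr, by rw [mul_inv, inv_pow]⟩

omit [Fact p.Prime] [CharP L p] in
theorem Rel.div {u v u' v' : L} (h : Rel p u v) (h' : Rel p u' v') : Rel p (u / u') (v / v') := by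
  rw [div_eq_mul_inv, div_eq_mul_inv]; exact h.mul h'.inv

omit [Fact p.Prime] [CharP L p] in
theorem Rel.pow {u v : L} (h : Rel p u v) (n : ℕ) : Rel p (u ^ n) (v ^ n) := by
  obtain ⟨r, hr, rfl⟩ := h
  exact ⟨r ^ n, pow_ne_zero _ hr, by rw [mul_pow, ← pow_mul, ← pow_mul, mul_comm p n]⟩

omit [Fact p.Prime] [CharP L p] in
theorem Rel.ne_zero_iff {u v : L} (h : Rel p u v) : u ≠ 0 ↔ v ≠ 0 := by
  obtain ⟨r, hr, rfl⟩ := h
  simp [hr]

omit [Fact p.Prime] [CharP L p] in
theorem Rel.isPP_iff {u v : L} (h : Rel p u v) : IsPP p u ↔ IsPP p v := by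
  constructor
  · intro hu
    obtain ⟨r, hr, rfl⟩ := h.symm
    exact (isPP_pow r).mul hu
  · intro hv
    obtain ⟨r, hr, rfl⟩ := h
    exact (isPP_pow r).mul hv

omit [CharP L p] in
theorem rel_one_of_isPP {u : L} (hu : u ≠ 0) (h : IsPP p u) : Rel p u 1 := by
  obtain ⟨b, rfl⟩ := h
  refine ⟨b, ?_, by simp⟩
  rintro rfl
  exact hu (zero_pow (Fact.out : p.Prime).ne_zero)

omit [CharP L p] in
theorem rel_mul_left_of_isPP {u v : L} (hu : u ≠ 0) (h : IsPP p u) : Rel p (u * v) v := by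
  simpa using (rel_one_of_isPP hu h).mul (Rel.refl v)

omit [Fact p.Prime] [CharP L p] in
theorem Rel.adj_right {z w w' : L} (h : Rel p w w') (hw : Adj p z w) : Adj p z w' := by
  obtain ⟨r, hr, rfl⟩ := h.symm
  exact Adj.pp_mul (isPP_pow r) hw

theorem Rel.adj_left {z z' w : L} (h : Rel p z z') (hw : Adj p z w) : Adj p z' w := by
  obtain ⟨r, hr, rfl⟩ := h
  exact Adj.trans (Adj.pp_mul (isPP_pow r) (Adj.self z')) hw

omit [Fact p.Prime] [CharP L p] in
/-- exponents only matter modulo `p` -/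
theorem rel_pow_of_modEq {u : L} (hu : u ≠ 0) {a b : ℕ} (h : a ≡ b [MOD p]) :
    Rel p (u ^ a) (u ^ b) := by
  have key : ∀ {a b : ℕ}, a ≤ b → a ≡ b [MOD p] → Rel p (u ^ b) (u ^ a) := by
    intro a b hab h
    obtain ⟨k, hk⟩ := (Nat.modEq_iff_dvd' hab).1 h
    refine ⟨u ^ k, pow_ne_zero _ hu, ?_⟩
    have : b = k * p + a := by rw [mul_comm]; omega
    rw [this, pow_add, pow_mul]
  rcases le_total a b with hab | hab
  · exact (key hab h).symm
  · exact key hab h.symm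

end Crest.Agent.MilnorRec
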