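import Mathlib
import Crest.Agent.MilnorRec.Basic

/-!
Row 9 (S0010), task PB: if `N ⊇ L^p` is a subfield and `z ∉ N` then `1, z, …, z^(p-1)` are linearly
independent over `N`  (`X^p - z^p` is irreducible over `N`: `X_pow_sub_C_irreducible_of_prime`, then
`minpoly` + `linearIndependent_pow`).
-/

namespace Crest.Agent.MilnorRec

open Finset

variable {L : Type*} [Field L] {p : ℕ} [Fact p.Prime] [CharP L p]

theorem linearIndependent_pow_of_not_mem (N : Subfield L) (hN : ∀ a : L, a ^ p ∈ N) (z : L)
    (hz : z ∉ N) : LinearIndependent N (fun i : Fin p => z ^ (i : ℕ)) := by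
  have hp : p.Prime := Fact.out
  have hirr : Irreducible
      (Polynomial.X ^ p - Polynomial.C (⟨z ^ p, hN z⟩ : N) : Polynomial N) := by
    apply X_pow_sub_C_irreducible_of_prime hp
    intro b hb
    apply hz
    have h1 : (b : L) ^ p = z ^ p := by
      have := congrArg (Subtype.val) hb
      simpa using this
    have hbz : (b : L) = z := pow_p_injective h1
    rw [← hbz]; exact b.2
  have hmin : (Polynomial.X ^ p - Polynomial.C (⟨z ^ p, hN z⟩ : N) : Polynomial N)
      = minpoly N z := by
    apply minpoly.eq_of_irreducible_of_monic hirr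
    · simp only [map_sub, map_pow, Polynomial.aeval_X, Polynomial.aeval_C]
      exact sub_self _
    · exact Polynomial.monic_X_pow_sub_C _ hp.ne_zero
  have hdeg : (minpoly N z).natDegree = p := by
    rw [← hmin]; exact Polynomial.natDegree_X_pow_sub_C
  have h := linearIndependent_pow (K := N) z
  rw [hdeg] at h
  exact h

theorem coeff_eq_zero_of_not_mem (N : Subfield L) (hN : ∀ a : L, a ^ p ∈ N) (z : L) (hz : z ∉ N)
    (n : ℕ → L) (hn : ∀ i, n i ∈ N) (h : ∑ i ∈ range p, n i * z ^ i = 0) : ∀ i < p, n i = 0 := by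
  have hli := linearIndependent_pow_of_not_mem N hN z hz
  rw [Fintype.linearIndependent_iff] at hli
  have h2 := hli (fun i : Fin p => (⟨n i, hn i⟩ : N)) (by
    rw [← h, ← Fin.sum_univ_eq_sum_range (fun i => n i * z ^ i) p]
    rfl)
  intro i hi
  have := h2 ⟨i, hi⟩
  simpa using congrArg Subtype.val this

/-- the subfield `L^p` -/
private def ppSubfield (L : Type*) [Field L] (p : ℕ) [Fact p.Prime] [CharP L p] : Subfield L :=
  (frobenius L p).fieldRange

private theorem mem_ppSubfield {a : L} : a ∈ ppSubfield L p ↔ IsPP p a := by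
  unfold ppSubfield IsPP
  rw [RingHom.mem_fieldRange]
  simp [frobenius_def]

/-- the case `N = L^p` in explicit form -/
theorem coeff_eq_zero {z : L} (hz : ¬ IsPP p z) (a : ℕ → L)
    (h : ∑ i ∈ range p, a i ^ p * z ^ i = 0) : ∀ i < p, a i = 0 := by
  have hp : p.Prime := Fact.out
  have := coeff_eq_zero_of_not_mem (ppSubfield L p) (fun a => mem_ppSubfield.2 (isPP_pow a)) z
    (fun hm => hz (mem_ppSubfield.1 hm)) (fun i => a i ^ p)
    (fun i => mem_ppSubfield.2 (isPP_pow (a i))) h
  intro i hi
  exact pow_eq_zero_iff hp.ne_zero |>.1 (this i hi)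

/-- uniqueness of the coefficients -/
theorem coeff_unique {z : L} (hz : ¬ IsPP p z) (a b : ℕ → L)
    (h : ∑ i ∈ range p, a i ^ p * z ^ i = ∑ i ∈ range p, b i ^ p * z ^ i) : ∀ i < p, a i = b i := by
  have := coeff_eq_zero hz (fun i => a i - b i) (by
    simp only [sub_pow_char, sub_mul, Finset.sum_sub_distrib]
    rw [h, sub_self])
  intro i hi
  exact sub_eq_zero.1 (this i hi)

/-- two-term version: `1` and `z` are independent over `L^p` -/
theorem eq_zero_of_add_mul_eq_zero {z : L} (hz : ¬ IsPP p z) {a b : L}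
    (h : a ^ p + b ^ p * z = 0) : a = 0 ∧ b = 0 := by
  have hp : p.Prime := Fact.out
  by_cases hb : b = 0
  · subst hb
    rw [zero_pow hp.ne_zero, zero_mul, add_zero] at h
    exact ⟨pow_eq_zero_iff hp.ne_zero |>.1 h, rfl⟩
  · exfalso
    apply hz
    have hbp : b ^ p ≠ 0 := pow_ne_zero _ hb
    have : z = (-(a ^ p)) / b ^ p := by
      field_simp
      linear_combination h
    rw [this]
    exact IsPP.div (IsPP.neg (isPP_pow a)) (isPP_pow b)

/-- three-term version: if `y ∉ L^p[x]` and `x ∉ L^p` then `1, x, y` are independent over `L^p` -/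
theorem eq_zero_of_add_mul_add_mul_eq_zero {x y : L} (hx : ¬ IsPP p x) (hy : ¬ Adj p x y)
    {a b c : L} (h : a ^ p + b ^ p * x + c ^ p * y = 0) : a = 0 ∧ b = 0 ∧ c = 0 := by
  have hp : p.Prime := Fact.out
  by_cases hc : c = 0
  · subst hc
    rw [zero_pow hp.ne_zero, zero_mul, add_zero] at h
    obtain ⟨h1, h2⟩ := eq_zero_of_add_mul_eq_zero hx h
    exact ⟨h1, h2, rfl⟩
  · exfalso
    apply hy
    have hcp : c ^ p ≠ 0 := pow_ne_zero _ hc
    have : y = (-(a ^ p + b ^ p * x)) / c ^ p := by
      field_simp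
      linear_combination h
    rw [this]
    exact Adj.div (Adj.neg (Adj.add (Adj.of_isPP (isPP_pow a))
      (Adj.mul (Adj.of_isPP (isPP_pow b)) (Adj.self x)))) (Adj.of_isPP (isPP_pow c))

/-- `ρ x^e = ρ' x^e'` with `ρ, ρ'` nonzero `p`-th powers and `e, e' < p` forces `e = e'` -/
theorem exp_unique {z : L} (hz : ¬ IsPP p z) {e e' : ℕ} (he : e < p) (he' : e' < p) {r r' : L}
    (hr : r ≠ 0) (h : r ^ p * z ^ e = r' ^ p * z ^ e') : e = e' := by
  have hp : p.Prime := Fact.out
  by_contra hne
  have key : ∀ (k : ℕ) (s : L), k < p →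
      ∑ i ∈ range p, (if i = k then s else 0) ^ p * z ^ i = s ^ p * z ^ k := by
    intro k s hk
    rw [Finset.sum_eq_single k]
    · simp
    · intro i _ hik
      simp [hik, hp.ne_zero]
    · intro hk'
      exact absurd (Finset.mem_range.2 hk) hk'
  have := coeff_unique hz (fun i => if i = e then r else 0) (fun i => if i = e' then r' else 0)
    (by rw [key e r he, key e' r' he', h]) e he
  simp [hne] at this
  exact hr this

/-- `1 + x` is not `x^m` up to a `p`-th power -/
theorem not_rel_one_add_pow {x : L} (hx : ¬ IsPP p x) (m : ℕ) (hm : m < p) :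
    ¬ Rel p (1 + x) (x ^ m) := by
  have hp : p.Prime := Fact.out
  rintro ⟨r, hr, h⟩
  have h0 : 0 < p := hp.pos
  have h1 : 1 < p := hp.one_lt
  have keyb : ∑ i ∈ range p, (if i = m then r else 0) ^ p * x ^ i = r ^ p * x ^ m := by
    rw [Finset.sum_eq_single m]
    · simp
    · intro i _ hik
      simp [hik, hp.ne_zero]
    · intro hk'
      exact absurd (Finset.mem_range.2 hm) hk'
  have keya : ∑ i ∈ range p, (if i = 0 ∨ i = 1 then (1 : L) else 0) ^ p * x ^ i = 1 + x := by
    have : ∀ i ∈ range p, (if i = 0 ∨ i = 1 then (1 : L) else 0) ^ p * x ^ i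
        = (if i = 0 then 1 else 0) + (if i = 1 then x else 0) := by
      intro i _
      by_cases hi0 : i = 0
      · subst hi0; simp
      · by_cases hi1 : i = 1
        · subst hi1; simp
        · simp [hi0, hi1, hp.ne_zero]
    rw [Finset.sum_congr rfl this, Finset.sum_add_distrib, Finset.sum_ite_eq', Finset.sum_ite_eq']
    simp [h0, h1]
  have hu := coeff_unique hx (fun i => if i = 0 ∨ i = 1 then (1 : L) else 0)
    (fun i => if i = m then r else 0) (by rw [keya, keyb, h])
  have e0 := hu 0 h0
  have e1 := hu 1 h1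
  simp only [true_or, or_true, if_true] at e0 e1
  by_cases hm0 : m = 0
  · subst hm0
    simp at e1
  · have : ¬ (0 = m) := fun h => hm0 h.symm
    simp [this] at e0

end Crest.Agent.MilnorRec
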