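import Mathlib
import Crest.Agent.MilnorRec.Basic
import Crest.Agent.MilnorRec.PB

/-!
Row 9 (S0010), task D: representative-level data `θ : K → L`, `θ' : L → K` of a compatible
isomorphism `Θ` and its inverse; first consequences; preservation of `p`-independence.

Proof of `Pair.adj_of_adj`: fix `x`.  `T = {w : L | w = 0 ∨ Adj p x (θ' w)}` contains the `p`-th powers
and `θ x`, is closed under products (`mul`) and under sums: for `w, w' ≠ 0`, `w + w' ≠ 0` put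
`z = w'/w`; `θ' z ~ θ' w' / θ' w ∈ K^p[x]`; by `stein'` either `θ' z` is a `p`-th power, then so are `z`,
`1 + z`, `θ' (1 + z)`; or `θ' (1+z) ∈ K^p[θ' z] ⊆ K^p[x]` (`Adj.trans`); finally
`θ' (w + w') ~ θ' w * θ' (1+z)`.  Hence `Adj p (θ x) (θ y)` gives `θ y ∈ T`, i.e. `Adj p x (θ' (θ y))`,
i.e. `Adj p x y`.
-/

namespace Crest.Agent.MilnorRec

open Finset

variable {K : Type*} [Field K] {L : Type*} [Field L] (p : ℕ)

/-- `θ` induces a homomorphism `Kˣ/Kˣᵖ → Lˣ/Lˣᵖ` -/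
structure Mult (θ : K → L) : Prop where
  ne_zero : ∀ u, u ≠ 0 → θ u ≠ 0
  mul : ∀ u v, u ≠ 0 → v ≠ 0 → Rel p (θ (u * v)) (θ u * θ v)
  pp : ∀ u, u ≠ 0 → IsPP p u → IsPP p (θ u)

/-- `θ`, `θ'` induce mutually inverse isomorphisms `Kˣ/Kˣᵖ ≃ Lˣ/Lˣᵖ` -/
structure MultPair (θ : K → L) (θ' : L → K) : Prop where
  fwd : Mult p θ
  bwd : Mult p θ'
  left_inv : ∀ u, u ≠ 0 → Rel p (θ' (θ u)) u
  right_inv : ∀ w, w ≠ 0 → Rel p (θ (θ' w)) w

/-- ... compatible with the Steinberg relations -/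
structure Pair (θ : K → L) (θ' : L → K) : Prop extends MultPair p θ θ' where
  stein : ∀ z, z ≠ 0 → 1 + z ≠ 0 → IsPP p (θ z) ∨ Adj p (θ z) (θ (1 + z))
  stein' : ∀ z, z ≠ 0 → 1 + z ≠ 0 → IsPP p (θ' z) ∨ Adj p (θ' z) (θ' (1 + z))

/-- ... mapping projective lines (over the `p`-th powers) to lines -/
structure LinPair (φ : K → L) (φ' : L → K) : Prop extends MultPair p φ φ' where
  lin : ∀ z, z ≠ 0 → 1 + z ≠ 0 → ∃ r : L, Rel p (φ (1 + z)) (1 + r ^ p * φ z)
  lin' : ∀ z, z ≠ 0 → 1 + z ≠ 0 → ∃ r : K, Rel p (φ' (1 + z)) (1 + r ^ p * φ' z)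

variable {p}

theorem MultPair.symm {θ : K → L} {θ' : L → K} (h : MultPair p θ θ') : MultPair p θ' θ :=
  ⟨h.bwd, h.fwd, h.right_inv, h.left_inv⟩

theorem Pair.symm {θ : K → L} {θ' : L → K} (h : Pair p θ θ') : Pair p θ' θ :=
  ⟨h.toMultPair.symm, h.stein', h.stein⟩

theorem LinPair.symm {θ : K → L} {θ' : L → K} (h : LinPair p θ θ') : LinPair p θ' θ :=
  ⟨h.toMultPair.symm, h.lin', h.lin⟩

variable [Fact p.Prime] [CharP K p] [CharP L p]
variable {θ : K → L} {θ' : L → K}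

theorem Mult.rel (h : Mult p θ) {u v : K} (hv : v ≠ 0) (huv : Rel p u v) : Rel p (θ u) (θ v) := by
  obtain ⟨r, hr, rfl⟩ := huv
  have hrp : r ^ p ≠ 0 := pow_ne_zero _ hr
  exact (h.mul _ _ hrp hv).trans
    (rel_mul_left_of_isPP (h.ne_zero _ hrp) (h.pp _ hrp (isPP_pow r)))

theorem Mult.one (h : Mult p θ) : Rel p (θ 1) 1 :=
  rel_one_of_isPP (h.ne_zero _ one_ne_zero) (h.pp _ one_ne_zero isPP_one)

theorem Mult.inv (h : Mult p θ) {u : K} (hu : u ≠ 0) : Rel p (θ u⁻¹) (θ u)⁻¹ := by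
  have h1 : Rel p (θ (u * u⁻¹)) (θ u * θ u⁻¹) := h.mul _ _ hu (inv_ne_zero hu)
  rw [mul_inv_cancel₀ hu] at h1
  have h2 : Rel p (θ u * θ u⁻¹) 1 := h1.symm.trans h.one
  have h3 := h2.mul (Rel.refl (p := p) (θ u)⁻¹)
  have hθ : θ u ≠ 0 := h.ne_zero _ hu
  have e1 : θ u * θ u⁻¹ * (θ u)⁻¹ = θ u⁻¹ := by field_simp
  rwa [e1, one_mul] at h3

theorem Mult.div (h : Mult p θ) {u v : K} (hu : u ≠ 0) (hv : v ≠ 0) :
    Rel p (θ (u / v)) (θ u / θ v) := by
  rw [div_eq_mul_inv, div_eq_mul_inv]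
  exact (h.mul _ _ hu (inv_ne_zero hv)).trans ((Rel.refl _).mul (h.inv hv))

theorem Mult.pow (h : Mult p θ) {u : K} (hu : u ≠ 0) (n : ℕ) : Rel p (θ (u ^ n)) (θ u ^ n) := by
  induction n with
  | zero => simpa using h.one
  | succ n ih =>
    rw [pow_succ, pow_succ]
    exact (h.mul _ _ (pow_ne_zero _ hu) hu).trans (ih.mul (Rel.refl _))

/-- `θ (r^p * u) ~ θ u` -/
theorem Mult.pp_mul (h : Mult p θ) {r u : K} (hr : r ≠ 0) (hu : u ≠ 0) :
    Rel p (θ (r ^ p * u)) (θ u) :=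
  h.rel hu ⟨r, hr, rfl⟩

theorem MultPair.isPP_iff (h : MultPair p θ θ') {u : K} (hu : u ≠ 0) :
    IsPP p (θ u) ↔ IsPP p u := by
  constructor
  · intro h1
    exact (h.left_inv u hu).isPP_iff.1 (h.bwd.pp _ (h.fwd.ne_zero _ hu) h1)
  · exact h.fwd.pp _ hu

theorem MultPair.rel_iff (h : MultPair p θ θ') {u v : K} (hu : u ≠ 0) (hv : v ≠ 0) :
    Rel p (θ u) (θ v) ↔ Rel p u v := by
  constructor
  · intro h1
    exact ((h.left_inv u hu).symm.trans (h.bwd.rel (h.fwd.ne_zero _ hv) h1)).trans (h.left_inv v hv)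
  · exact h.fwd.rel hv

theorem MultPair.pow_aux (h : MultPair p θ θ') {e e' : ℕ} (hee' : e * e' ≡ 1 [MOD p]) :
    Mult p (fun u => θ u ^ e) ∧ ∀ u, u ≠ 0 → Rel p (θ' (θ u ^ e) ^ e') u := by
  refine ⟨⟨fun u hu => pow_ne_zero _ (h.fwd.ne_zero _ hu), fun u v hu hv => ?_,
    fun u hu hpp => (h.fwd.pp _ hu hpp).pow _⟩, fun u hu => ?_⟩
  · have := (h.fwd.mul u v hu hv).pow e
    rwa [mul_pow] at this
  · have h1 : Rel p (θ' (θ u ^ e)) (θ' (θ u) ^ e) := h.bwd.pow (h.fwd.ne_zero _ hu) e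
    have h2 : Rel p (θ' (θ u) ^ e) (u ^ e) := (h.left_inv u hu).pow e
    have h3 : Rel p (θ' (θ u ^ e) ^ e') ((u ^ e) ^ e') := (h1.trans h2).pow e'
    rw [← pow_mul] at h3
    have h4 : Rel p (u ^ (e * e')) (u ^ 1) := rel_pow_of_modEq hu hee'
    rw [pow_one] at h4
    exact h3.trans h4

/-- powers of a `MultPair` with inverse exponents form a `MultPair` -/
theorem MultPair.pow (h : MultPair p θ θ') {e e' : ℕ} (hee' : e * e' ≡ 1 [MOD p]) :
    MultPair p (fun u => θ u ^ e) (fun w => θ' w ^ e') := by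
  have k1 := h.pow_aux hee'
  have k2 := h.symm.pow_aux (e := e') (e' := e) (by rwa [mul_comm])
  exact ⟨k1.1, k2.1, k1.2, k2.2⟩

/-- `p`-dependence is reflected -/
theorem Pair.adj_of_adj (h : Pair p θ θ') {x y : K} (hx : x ≠ 0) (hy : y ≠ 0)
    (hxy : Adj p (θ x) (θ y)) : Adj p x y := by
  -- the set `T`
  set T : L → Prop := fun w => w = 0 ∨ Adj p x (θ' w) with hT
  have hpp : ∀ w, IsPP p w → T w := by
    intro w hw
    by_cases hw0 : w = 0
    · exact Or.inl hw0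
    · exact Or.inr (Adj.of_isPP (h.bwd.pp _ hw0 hw))
  have hθx : T (θ x) := Or.inr ((h.left_inv x hx).symm.adj_right (Adj.self x))
  have hmul : ∀ w w', T w → T w' → T (w * w') := by
    intro w w' hw hw'
    rcases hw with rfl | hw
    · exact Or.inl (zero_mul _)
    rcases hw' with rfl | hw'
    · exact Or.inl (mul_zero _)
    by_cases hw0 : w = 0
    · exact Or.inl (by rw [hw0, zero_mul])
    by_cases hw0' : w' = 0
    · exact Or.inl (by rw [hw0', mul_zero])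
    exact Or.inr ((h.bwd.mul w w' hw0 hw0').symm.adj_right (hw.mul hw'))
  have hadd : ∀ w w', T w → T w' → T (w + w') := by
    intro w w' hw hw'
    by_cases hw0 : w = 0
    · rw [hw0, zero_add]; exact hw'
    by_cases hw0' : w' = 0
    · rw [hw0', add_zero]; exact hw
    by_cases hs : w + w' = 0
    · exact Or.inl hs
    have hw1 : Adj p x (θ' w) := hw.resolve_left hw0
    have hw1' : Adj p x (θ' w') := hw'.resolve_left hw0'
    have hz : w' / w ≠ 0 := div_ne_zero hw0' hw0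
    have e1 : w * (1 + w' / w) = w + w' := by field_simp
    have hz1 : 1 + w' / w ≠ 0 := by
      intro h0
      rw [h0, mul_zero] at e1
      exact hs e1.symm
    have hA : Adj p x (θ' (w' / w)) := (h.bwd.div hw0' hw0).symm.adj_right (hw1'.div hw1)
    have hB : Adj p x (θ' (1 + w' / w)) := by
      rcases h.stein' _ hz hz1 with h1 | h1
      · have h2 : IsPP p (w' / w) := (h.toMultPair.symm.isPP_iff hz).1 h1
        exact Adj.of_isPP (h.bwd.pp _ hz1 (isPP_one.add h2))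
      · exact hA.trans h1
    refine Or.inr ?_
    rw [← e1]
    exact (h.bwd.mul _ _ hw0 hz1).symm.adj_right (hw1.mul hB)
  have hpow : ∀ n : ℕ, T (θ x ^ n) := by
    intro n
    induction n with
    | zero => simpa using hpp 1 isPP_one
    | succ n ih => rw [pow_succ]; exact hmul _ _ ih hθx
  have hsum : ∀ (s : Finset ℕ) (f : ℕ → L), (∀ i ∈ s, T (f i)) → T (∑ i ∈ s, f i) := by
    intro s f
    induction s using Finset.induction_on with
    | empty => intro _; exact Or.inl (by simp)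
    | insert a s ha ih =>
      intro hf
      rw [Finset.sum_insert ha]
      exact hadd _ _ (hf a (Finset.mem_insert_self _ _))
        (ih fun i hi => hf i (Finset.mem_insert_of_mem hi))
  obtain ⟨a, ha⟩ := hxy
  have hTy : T (θ y) := by
    rw [ha]
    exact hsum _ _ fun i _ => hmul _ _ (hpp _ (isPP_pow _)) (hpow i)
  have hy' : Adj p x (θ' (θ y)) := hTy.resolve_left (h.fwd.ne_zero _ hy)
  exact (h.left_inv y hy).adj_right hy'

theorem Pair.not_adj (h : Pair p θ θ') {x y : K} (hx : x ≠ 0) (hy : y ≠ 0) (hxy : ¬ Adj p x y) :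
    ¬ Adj p (θ x) (θ y) :=
  fun h' => hxy (h.adj_of_adj hx hy h')

end Crest.Agent.MilnorRec
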