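import Mathlib
import Crest.Agent.MilnorRec.Basic
import Crest.Agent.MilnorRec.PB
import Crest.Agent.MilnorRec.Pair

/-!
Row 9 (S0010), task I1: a multiplicative collineation, first part: normalised representatives.
`F = K^p`, `F₁ = L^p`; `~` is `Rel p`.

* `lin_add`: `φ (u+v) = φ (u (1 + v/u)) ~ φ u * φ (1 + v/u) ~ φ u * (1 + r^p φ (v/u))`, `φ (v/u) ~ φ v/φ u`.
* `not_span`: if `φ y = a^p + b^p φ x`: `a = 0` gives `φ y ~ φ x`, `y ~ x`; `b = 0` gives `φ y`, hence `y`, a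
  `p`-th power; otherwise `φ y ~ 1 + w`, `w = (b/a)^p φ x`, and `y ~ φ' (φ y) ~ φ' (1 + w) ~ 1 + r^p φ' w`,
  `φ' w ~ x`, so `y ∈ span (1, x)`.
* `LI3.map`: from `not_span` and `eq_zero_of_add_mul_eq_zero`.
* `exists_nrm`: `φ (1+x) ~ 1 + r^p φ x` with `r ≠ 0` (else `1 + x` would be a `p`-th power); `v := r^p φ x`.
* `nrm_unique`: `v' = s^p v`, `1 + s^p v = t^p (1 + v)`, `v ∉ F₁`, so `t = 1`, `s = 1`.
* `nrm_add`: `φ ((1+x)+y) ~ (1+v) + r^p w` and `φ ((1+y)+x) ~ (1+w) + r'^p v`; `LI3 v w` forces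
  `r = r' = 1`; then `φ (x+y) ~ v + r''^p w` and `φ (1+(x+y)) ~ 1 + c^p (v + r''^p w)`; compare with
  `1 + v + w`.
-/

namespace Crest.Agent.MilnorRec

open Finset

variable {K : Type*} [Field K] {L : Type*} [Field L] (p : ℕ)

/-- `1, x, y` are linearly independent over the `p`-th powers -/
def LI3 {L : Type*} [Field L] (p : ℕ) (x y : L) : Prop :=
  ∀ a b c : L, a ^ p + b ^ p * x + c ^ p * y = 0 → a = 0 ∧ b = 0 ∧ c = 0

/-- `v` is the representative of the class of `φ x` normalised by `φ (1 + x) ~ 1 + v` -/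
def Nrm (φ : K → L) (x : K) (v : L) : Prop := Rel p v (φ x) ∧ Rel p (φ (1 + x)) (1 + v)

variable {p}
variable [Fact p.Prime] [CharP K p] [CharP L p]
variable {φ : K → L} {φ' : L → K}

theorem LI3.eq_of_eq {x y : L} (h : LI3 p x y) {a b c a' b' c' : L}
    (e : a ^ p + b ^ p * x + c ^ p * y = a' ^ p + b' ^ p * x + c' ^ p * y) :
    a = a' ∧ b = b' ∧ c = c' := by
  have := h (a - a') (b - b') (c - c') (by
    rw [sub_pow_char, sub_pow_char, sub_pow_char]
    linear_combination e)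
  exact ⟨sub_eq_zero.mp this.1, sub_eq_zero.mp this.2.1, sub_eq_zero.mp this.2.2⟩

private theorem p_ne_zero' : p ≠ 0 := (Fact.out : p.Prime).ne_zero

theorem LI3.not_isPP_left {x y : L} (h : LI3 p x y) : ¬ IsPP p x := by
  intro hx
  obtain ⟨e, he⟩ := hx.neg
  have := h e 1 0 (by rw [he, one_pow, zero_pow p_ne_zero']; ring)
  exact one_ne_zero this.2.1

theorem LI3.not_isPP_right {x y : L} (h : LI3 p x y) : ¬ IsPP p y := by
  intro hx
  obtain ⟨e, he⟩ := hx.neg
  have := h e 0 1 (by rw [he, one_pow, zero_pow p_ne_zero']; ring)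
  exact one_ne_zero this.2.2

theorem LI3.not_isPP_add {x y : L} (h : LI3 p x y) : ¬ IsPP p (x + y) := by
  intro hx
  obtain ⟨e, he⟩ := hx.neg
  have := h e 1 1 (by rw [he, one_pow]; ring)
  exact one_ne_zero this.2.2

theorem LI3.symm {x y : L} (h : LI3 p x y) : LI3 p y x := by
  intro a b c e
  have := h a c b (by linear_combination e)
  exact ⟨this.1, this.2.2, this.2.1⟩

theorem li3_of_not_adj {x y : L} (hx : ¬ IsPP p x) (hy : ¬ Adj p x y) : LI3 p x y :=
  fun _ _ _ e => eq_zero_of_add_mul_add_mul_eq_zero hx hy e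

theorem li3_iff {x y : L} : LI3 p x y ↔ ¬ IsPP p x ∧ ∀ a b : L, y ≠ a ^ p + b ^ p * x := by
  constructor
  · intro h
    refine ⟨h.not_isPP_left, fun a b e => ?_⟩
    have := h.eq_of_eq (a := 0) (b := 0) (c := 1) (a' := a) (b' := b) (c' := 0) (by
      rw [one_pow, zero_pow p_ne_zero']; linear_combination e)
    exact one_ne_zero this.2.2
  · rintro ⟨hx, hy⟩ a b c e
    by_cases hc : c = 0
    · subst hc
      have := eq_zero_of_add_mul_eq_zero hx (a := a) (b := b) (by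
        rw [zero_pow p_ne_zero'] at e; linear_combination e)
      exact ⟨this.1, this.2, rfl⟩
    · exfalso
      obtain ⟨a', ha'⟩ := (isPP_pow (p := p) a).neg
      obtain ⟨b', hb'⟩ := (isPP_pow (p := p) b).neg
      apply hy (a' / c) (b' / c)
      have hcp : c ^ p ≠ 0 := pow_ne_zero _ hc
      rw [div_pow, div_pow, ha', hb']
      field_simp
      linear_combination e

/-- change of the frame: `s^p x + (lower)`; all the variants needed later -/
theorem LI3.smul {x y : L} (h : LI3 p x y) {s t : L} (hs : s ≠ 0) (ht : t ≠ 0) :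
    LI3 p (s ^ p * x) (t ^ p * y) := by
  intro a b c e
  have := h a (b * s) (c * t) (by rw [mul_pow, mul_pow]; linear_combination e)
  refine ⟨this.1, ?_, ?_⟩
  · exact (mul_eq_zero.mp this.2.1).resolve_right hs
  · exact (mul_eq_zero.mp this.2.2).resolve_right ht

theorem LI3.add_right {x y : L} (h : LI3 p x y) (a b : L) : LI3 p x (a ^ p + b ^ p * x + y) := by
  intro a' b' c' e
  have := h (a' + c' * a) (b' + c' * b) c' (by
    rw [add_pow_char, add_pow_char, mul_pow, mul_pow]; linear_combination e)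
  obtain ⟨h1, h2, h3⟩ := this
  subst h3
  simp only [zero_mul, add_zero] at h1 h2
  exact ⟨h1, h2, rfl⟩

theorem LI3.add_left {x y : L} (h : LI3 p x y) (a : L) : LI3 p (a ^ p + x) y := by
  intro a' b' c' e
  have := h (a' + b' * a) b' c' (by
    rw [add_pow_char, mul_pow]; linear_combination e)
  obtain ⟨h1, h2, h3⟩ := this
  subst h2
  simp only [zero_mul, add_zero] at h1
  exact ⟨h1, rfl, h3⟩

theorem LinPair.lin_add (h : LinPair p φ φ') {u v : K} (hu : u ≠ 0) (hv : v ≠ 0) (huv : u + v ≠ 0)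
    {u₁ v₁ : L} (hu₁ : Rel p u₁ (φ u)) (hv₁ : Rel p v₁ (φ v)) :
    ∃ r : L, Rel p (φ (u + v)) (u₁ + r ^ p * v₁) := by
  have hz : v / u ≠ 0 := div_ne_zero hv hu
  have h1z : 1 + v / u ≠ 0 := by
    have : 1 + v / u = (u + v) / u := by field_simp
    rw [this]; exact div_ne_zero huv hu
  obtain ⟨r, c2, hc2, e2⟩ := h.lin (v / u) hz h1z
  obtain ⟨c1, hc1, e1⟩ := h.fwd.mul u (1 + v / u) hu h1z
  obtain ⟨s, hs, e3⟩ := h.fwd.div hv hu
  obtain ⟨a, ha, e4⟩ := hu₁
  obtain ⟨b, hb, e5⟩ := hv₁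
  have hφu : φ u ≠ 0 := h.fwd.ne_zero u hu
  have huv' : u * (1 + v / u) = u + v := by field_simp
  rw [huv'] at e1
  refine ⟨r * s * a / b, c1 * c2 / a, div_ne_zero (mul_ne_zero hc1 hc2) ha, ?_⟩
  rw [e1, e2, e3, e4, e5]
  have hap : a ^ p ≠ 0 := pow_ne_zero _ ha
  have hbp : b ^ p ≠ 0 := pow_ne_zero _ hb
  simp only [div_pow, mul_pow]
  field_simp

theorem LinPair.not_span (h : LinPair p φ φ') {x y : K} (hx : ¬ IsPP p x) (hy0 : y ≠ 0)
    (hy : ∀ a b : K, y ≠ a ^ p + b ^ p * x) : ∀ a b : L, φ y ≠ a ^ p + b ^ p * φ x := by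
  intro a b e
  have hx0 : x ≠ 0 := fun h0 => hx (h0 ▸ isPP_zero)
  have hφy : φ y ≠ 0 := h.fwd.ne_zero y hy0
  have hφx : φ x ≠ 0 := h.fwd.ne_zero x hx0
  by_cases ha : a = 0
  · subst ha
    rw [zero_pow p_ne_zero', zero_add] at e
    have hb : b ≠ 0 := by
      rintro rfl
      rw [zero_pow p_ne_zero', zero_mul] at e
      exact hφy e
    obtain ⟨r, -, er⟩ := (h.toMultPair.rel_iff hy0 hx0).mp ⟨b, hb, e⟩
    exact hy 0 r (by rw [zero_pow p_ne_zero', zero_add]; exact er)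
  by_cases hb : b = 0
  · subst hb
    rw [zero_pow p_ne_zero', zero_mul, add_zero] at e
    obtain ⟨d, hd⟩ := (h.toMultPair.isPP_iff hy0).mp ⟨a, e.symm⟩
    exact hy d 0 (by rw [zero_pow p_ne_zero', zero_mul, add_zero]; exact hd.symm)
  have hba : b / a ≠ 0 := div_ne_zero hb ha
  have hap : a ^ p ≠ 0 := pow_ne_zero _ ha
  set w : L := (b / a) ^ p * φ x with hw
  have hw0 : w ≠ 0 := mul_ne_zero (pow_ne_zero _ hba) hφx
  have e' : φ y = a ^ p * (1 + w) := by
    rw [e, hw, div_pow]; field_simp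
  have h1w : 1 + w ≠ 0 := by
    intro h0; rw [h0, mul_zero] at e'; exact hφy e'
  obtain ⟨r, hr⟩ := h.lin' w hw0 h1w
  have r1 : Rel p (φ' w) x := (h.bwd.pp_mul hba hφx).trans (h.left_inv x hx0)
  have r2 : Rel p y (φ' (1 + w)) := by
    have := (h.left_inv y hy0).symm
    rw [e'] at this
    exact this.trans (h.bwd.pp_mul ha h1w)
  obtain ⟨c, -, ec⟩ := r2.trans hr
  obtain ⟨s, -, es⟩ := r1
  apply hy c (c * r * s)
  rw [ec, es]; simp only [mul_pow]; ring

theorem LinPair.li3_map (h : LinPair p φ φ') {x y : K} (hxy : LI3 p x y) {v w : L}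
    (hv : Rel p v (φ x)) (hw : Rel p w (φ y)) : LI3 p v w := by
  have hx : ¬ IsPP p x := hxy.not_isPP_left
  have hy : ¬ IsPP p y := hxy.not_isPP_right
  have hx0 : x ≠ 0 := fun h0 => hx (h0 ▸ isPP_zero)
  have hy0 : y ≠ 0 := fun h0 => hy (h0 ▸ isPP_zero)
  rw [li3_iff]
  refine ⟨fun hpp => hx ((h.toMultPair.isPP_iff hx0).mp (hv.isPP_iff.mp hpp)), fun a b e => ?_⟩
  obtain ⟨c, hc, ec⟩ := hw
  obtain ⟨d, hd, ed⟩ := hv
  apply h.not_span hx hy0 (li3_iff.mp hxy).2 (a / c) (b * d / c)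
  have hcp : c ^ p ≠ 0 := pow_ne_zero _ hc
  rw [ec, ed] at e
  simp only [div_pow, mul_pow]
  field_simp
  linear_combination e

private theorem one_add_ne_zero_of_not_isPP {M : Type*} [Field M] [CharP M p] {x : M}
    (hx : ¬ IsPP p x) : 1 + x ≠ 0 := by
  intro h0
  apply hx
  have : x = -1 := by linear_combination h0
  rw [this]
  exact isPP_one.neg

private theorem not_isPP_one_add {M : Type*} [Field M] [CharP M p] {x : M}
    (hx : ¬ IsPP p x) : ¬ IsPP p (1 + x) := by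
  intro h1
  apply hx
  have : x = (1 + x) - 1 := by ring
  rw [this]
  exact h1.sub isPP_one

theorem LinPair.exists_nrm (h : LinPair p φ φ') {x : K} (hx : ¬ IsPP p x) : ∃ v : L, Nrm p φ x v := by
  have hx0 : x ≠ 0 := fun h0 => hx (h0 ▸ isPP_zero)
  have h1x : 1 + x ≠ 0 := one_add_ne_zero_of_not_isPP hx
  obtain ⟨r, hr⟩ := h.lin x hx0 h1x
  have hr0 : r ≠ 0 := by
    rintro rfl
    rw [zero_pow p_ne_zero', zero_mul, add_zero] at hr
    exact not_isPP_one_add hx ((h.toMultPair.isPP_iff h1x).mp (hr.isPP_iff.mpr isPP_one))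
  exact ⟨r ^ p * φ x, ⟨r, hr0, rfl⟩, hr⟩

theorem LinPair.nrm_not_isPP (h : LinPair p φ φ') {x : K} (hx : ¬ IsPP p x) {v : L}
    (hv : Nrm p φ x v) : ¬ IsPP p v := by
  have hx0 : x ≠ 0 := fun h0 => hx (h0 ▸ isPP_zero)
  exact fun hpp => hx ((h.toMultPair.isPP_iff hx0).mp (hv.1.isPP_iff.mp hpp))

theorem LinPair.nrm_unique (h : LinPair p φ φ') {x : K} (hx : ¬ IsPP p x) {v v' : L}
    (hv : Nrm p φ x v) (hv' : Nrm p φ x v') : v = v' := by
  have hvpp := h.nrm_not_isPP hx hv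
  obtain ⟨s, -, es⟩ := hv'.1.trans hv.1.symm
  obtain ⟨t, -, et⟩ := hv'.2.symm.trans hv.2
  have := eq_zero_of_add_mul_eq_zero hvpp (a := 1 - t) (b := s - t) (by
    rw [sub_pow_char, sub_pow_char, one_pow]
    rw [es] at et
    linear_combination et)
  have ht : t = 1 := by linear_combination -this.1
  have hs : s = 1 := by linear_combination this.2 + ht
  rw [es, hs, one_pow, one_mul]

theorem LinPair.rel_one_add_add (h : LinPair p φ φ') {x y : K} (hxy : LI3 p x y) {v w : L}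
    (hv : Nrm p φ x v) (hw : Nrm p φ y w) : Rel p (φ (1 + x + y)) (1 + v + w) := by
  have hx : ¬ IsPP p x := hxy.not_isPP_left
  have hy : ¬ IsPP p y := hxy.not_isPP_right
  have hx0 : x ≠ 0 := fun h0 => hx (h0 ▸ isPP_zero)
  have hy0 : y ≠ 0 := fun h0 => hy (h0 ▸ isPP_zero)
  have h1x : 1 + x ≠ 0 := one_add_ne_zero_of_not_isPP hx
  have h1y : 1 + y ≠ 0 := one_add_ne_zero_of_not_isPP hy
  have hsum : 1 + x + y ≠ 0 := by
    intro h0
    have := hxy 1 1 1 (by simp only [one_pow, one_mul]; exact h0)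
    exact one_ne_zero this.1
  have hsum' : 1 + y + x ≠ 0 := by
    intro h0; apply hsum; linear_combination h0
  have hli : LI3 p v w := h.li3_map hxy hv.1 hw.1
  obtain ⟨r, hr⟩ := h.lin_add h1x hy0 hsum hv.2.symm hw.1
  obtain ⟨r', hr'⟩ := h.lin_add h1y hx0 hsum' hw.2.symm hv.1
  have hcomm : 1 + y + x = 1 + x + y := by ring
  rw [hcomm] at hr'
  obtain ⟨c, -, ec⟩ := hr.symm.trans hr'
  have := hli.eq_of_eq (a := 1) (b := 1) (c := r) (a' := c) (b' := c * r') (c' := c) (by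
    simp only [one_pow, one_mul, mul_pow]
    linear_combination ec)
  have hr1 : r = 1 := by rw [this.2.2, ← this.1]
  rw [hr1, one_pow, one_mul] at hr
  exact hr

theorem LinPair.nrm_add (h : LinPair p φ φ') {x y : K} (hxy : LI3 p x y) {v w : L}
    (hv : Nrm p φ x v) (hw : Nrm p φ y w) : Nrm p φ (x + y) (v + w) := by
  have hx : ¬ IsPP p x := hxy.not_isPP_left
  have hy : ¬ IsPP p y := hxy.not_isPP_right
  have hxy' : ¬ IsPP p (x + y) := hxy.not_isPP_add
  have hx0 : x ≠ 0 := fun h0 => hx (h0 ▸ isPP_zero)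
  have hy0 : y ≠ 0 := fun h0 => hy (h0 ▸ isPP_zero)
  have hxy0 : x + y ≠ 0 := fun h0 => hxy' (h0 ▸ isPP_zero)
  have h1xy : 1 + (x + y) ≠ 0 := one_add_ne_zero_of_not_isPP hxy'
  have hli : LI3 p v w := h.li3_map hxy hv.1 hw.1
  have key : Rel p (φ (1 + (x + y))) (1 + (v + w)) := by
    have := h.rel_one_add_add hxy hv hw
    rwa [add_assoc, add_assoc] at this
  refine ⟨?_, key⟩
  obtain ⟨r, hr⟩ := h.lin_add hx0 hy0 hxy0 hv.1 hw.1
  obtain ⟨c, hc⟩ := h.lin (x + y) hxy0 h1xy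
  obtain ⟨d, hd, ed⟩ := hr
  obtain ⟨e, -, ee⟩ := hc.symm.trans key
  rw [ed] at ee
  have := hli.eq_of_eq (a := 1) (b := c * d) (c := c * d * r) (a' := e) (b' := e) (c' := e) (by
    simp only [one_pow, mul_pow]
    linear_combination ee)
  obtain ⟨h1, h2, h3⟩ := this
  have hcd : c * d = 1 := by rw [h2, ← h1]
  have hr1 : r = 1 := by
    have : c * d * r = 1 := by rw [h3, ← h1]
    rw [hcd, one_mul] at this
    exact this
  rw [hr1, one_pow, one_mul] at ed
  exact Rel.symm ⟨d, hd, ed⟩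

end Crest.Agent.MilnorRec
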