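import Mathlib
import Crest.Agent.MilnorRec.Basic
import Crest.Agent.MilnorRec.PB
import Crest.Agent.MilnorRec.Pair
import Crest.Agent.MilnorRec.CollinA

/-!
Row 9 (S0010), task I2a: the semilinearity factor `τ`.
`a : K → L` is a choice of normalised representatives on `K \ K^p`.

* `a_add`: `nrm_add` + `nrm_unique`.
* For `s ≠ 0`, `x ∉ F`: `a (s^p x) ~ φ (s^p x) ~ φ x ~ a x`, so `a (s^p x) = t^p a x` with a unique `t =: τ_x s ≠ 0`.
* `LI3 x y → τ_x = τ_y`: `a (s^p (x+y)) = τ_{x+y}^p (a x + a y)` and `= a (s^p x) + a (s^p y) = τ_x^p a x + τ_y^p a y`;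
  `LI3 (a x) (a y)` (`li3_map`).
* arbitrary `x, y ∉ F`: if `y ∉ K^p[x]` then `LI3 x y`; otherwise take `z ∉ K^p[x]` (`Rich`): `LI3 x z` and
  `LI3 y z` (`z ∉ K^p[y]` by `Adj.trans`).
-/

namespace Crest.Agent.MilnorRec

open Finset

variable {K : Type*} [Field K] {L : Type*} [Field L] {p : ℕ}
variable [Fact p.Prime] [CharP K p] [CharP L p]
variable {φ : K → L} {φ' : L → K}

theorem LinPair.a_add (h : LinPair p φ φ') {a : K → L} (ha : ∀ x, ¬ IsPP p x → Nrm p φ x (a x))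
    {x y : K} (hxy : LI3 p x y) : a (x + y) = a x + a y :=
  h.nrm_unique hxy.not_isPP_add (ha _ hxy.not_isPP_add)
    (h.nrm_add hxy (ha _ hxy.not_isPP_left) (ha _ hxy.not_isPP_right))

theorem LinPair.a_li3 (h : LinPair p φ φ') {a : K → L} (ha : ∀ x, ¬ IsPP p x → Nrm p φ x (a x))
    {x y : K} (hxy : LI3 p x y) : LI3 p (a x) (a y) :=
  h.li3_map hxy (ha _ hxy.not_isPP_left).1 (ha _ hxy.not_isPP_right).1

omit [CharP K p] [CharP L p] in
theorem ne_zero_of_not_isPP_B {M : Type*} [Field M] {x : M} (hx : ¬ IsPP p x) : x ≠ 0 := by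
  rintro rfl
  exact hx isPP_zero

omit [CharP K p] [CharP L p] in
theorem not_isPP_pp_mul {M : Type*} [Field M] {s x : M} (hs : s ≠ 0) (hx : ¬ IsPP p x) :
    ¬ IsPP p (s ^ p * x) := by
  intro h
  have hr : Rel p (s ^ p * x) x := ⟨s, hs, rfl⟩
  exact hx (hr.isPP_iff.1 h)

/-- existence of the local factor -/
theorem LinPair.exists_tau_loc (h : LinPair p φ φ') {a : K → L}
    (ha : ∀ x, ¬ IsPP p x → Nrm p φ x (a x)) {s x : K} (hs : s ≠ 0) (hx : ¬ IsPP p x) :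
    ∃ t : L, t ≠ 0 ∧ a (s ^ p * x) = t ^ p * a x := by
  have hx0 : x ≠ 0 := ne_zero_of_not_isPP_B hx
  have h1 : Rel p (a (s ^ p * x)) (φ (s ^ p * x)) := (ha _ (not_isPP_pp_mul hs hx)).1
  have h2 : Rel p (φ (s ^ p * x)) (φ x) := h.fwd.pp_mul hs hx0
  have h3 : Rel p (φ x) (a x) := (ha _ hx).1.symm
  exact (h1.trans h2).trans h3

/-- the local factors agree on independent pairs -/
theorem LinPair.tau_loc_eq_of_li3 (h : LinPair p φ φ') {a : K → L}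
    (ha : ∀ x, ¬ IsPP p x → Nrm p φ x (a x)) {s x y : K} (hs : s ≠ 0) (hxy : LI3 p x y)
    {t t' : L} (ht : a (s ^ p * x) = t ^ p * a x) (ht' : a (s ^ p * y) = t' ^ p * a y) :
    t = t' := by
  obtain ⟨u, -, hu⟩ := h.exists_tau_loc ha hs hxy.not_isPP_add
  have h1 : a (s ^ p * x + s ^ p * y) = a (s ^ p * x) + a (s ^ p * y) :=
    h.a_add ha (hxy.smul hs hs)
  rw [← mul_add, hu, h.a_add ha hxy, ht, ht'] at h1
  have hli := h.a_li3 ha hxy
  have h2 : (0 : L) ^ p + (u - t) ^ p * a x + (u - t') ^ p * a y = 0 := by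
    rw [sub_pow_char, sub_pow_char, zero_pow (Fact.out : p.Prime).ne_zero]
    linear_combination h1
  obtain ⟨-, hb, hc⟩ := hli _ _ _ h2
  rw [sub_eq_zero] at hb hc
  rw [← hb, ← hc]

/-- the local factors agree for arbitrary base points -/
theorem LinPair.tau_loc_eq (h : LinPair p φ φ') (hK : Rich K p) {a : K → L}
    (ha : ∀ x, ¬ IsPP p x → Nrm p φ x (a x)) {s x y : K} (hs : s ≠ 0) (hx : ¬ IsPP p x)
    (hy : ¬ IsPP p y)
    {t t' : L} (ht : a (s ^ p * x) = t ^ p * a x) (ht' : a (s ^ p * y) = t' ^ p * a y) :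
    t = t' := by
  by_cases hadj : Adj p x y
  · obtain ⟨z, hz⟩ := hK x
    have hz' : ¬ Adj p y z := fun h' => hz (hadj.trans h')
    have hzpp : ¬ IsPP p z := not_isPP_of_not_adj hz
    obtain ⟨u, -, hu⟩ := h.exists_tau_loc ha hs hzpp
    rw [h.tau_loc_eq_of_li3 ha hs (li3_of_not_adj hx hz) ht hu,
      h.tau_loc_eq_of_li3 ha hs (li3_of_not_adj hy hz') ht' hu]
  · exact h.tau_loc_eq_of_li3 ha hs (li3_of_not_adj hx hadj) ht ht'

theorem LinPair.exists_tau (h : LinPair p φ φ') (hK : Rich K p) {a : K → L}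
    (ha : ∀ x, ¬ IsPP p x → Nrm p φ x (a x)) :
    ∃ τ : K → L, τ 0 = 0 ∧ (∀ s, s ≠ 0 → τ s ≠ 0) ∧
      ∀ s x, s ≠ 0 → ¬ IsPP p x → a (s ^ p * x) = τ s ^ p * a x := by
  classical
  obtain ⟨x₀, hx₀'⟩ := hK 0
  have hx₀ : ¬ IsPP p x₀ := not_isPP_of_not_adj hx₀'
  have key : ∀ s : K, ∃ t : L, (s = 0 → t = 0) ∧
      (s ≠ 0 → t ≠ 0 ∧ a (s ^ p * x₀) = t ^ p * a x₀) := by
    intro s
    by_cases hs : s = 0
    · exact ⟨0, fun _ => rfl, fun h' => absurd hs h'⟩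
    · obtain ⟨t, ht0, ht⟩ := h.exists_tau_loc ha hs hx₀
      exact ⟨t, fun h' => absurd h' hs, fun _ => ⟨ht0, ht⟩⟩
  choose τ hτ0 hτ using key
  refine ⟨τ, hτ0 0 rfl, fun s hs => (hτ s hs).1, fun s x hs hx => ?_⟩
  obtain ⟨t, -, ht⟩ := h.exists_tau_loc ha hs hx
  rw [ht, h.tau_loc_eq hK ha hs hx hx₀ ht (hτ s hs).2]

end Crest.Agent.MilnorRec
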