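import Mathlib
import Crest.Agent.MilnorRec.Basic
import Crest.Agent.MilnorRec.PB
import Crest.Agent.MilnorRec.Pair
import Crest.Agent.MilnorRec.CollinA
import Crest.Agent.MilnorRec.CollinB

/-!
Row 9 (S0010), task I2b: properties of `τ`.  Throughout `x, y` with `LI3 x y` exist by `Rich`
(`x ∉ K^p`: apply `Rich` to `1`; `y ∉ K^p[x]`).

* `tau_one`: `a x = a (1^p x) = τ 1^p a x`.
* `tau_mul`: `a ((s s')^p x) = τ s^p a (s'^p x) = τ s^p τ s'^p a x`, `pow_p_injective`.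
* `tau_add`: `a ((s+s')^p x + y) = τ (s+s')^p a x + a y` and
  `= a (s^p x + (s'^p x + y)) = τ s^p a x + τ s'^p a x + a y` (also when `s + s' = 0`, where the left side is `a y`).
* `a_one_add`: `a ((1+x)+y) = a (1+x) + a y`, `a (1+x) = ρ^p (1 + a x)`, and
  `a (1+x+y) ~ φ (1+x+y) ~ 1 + a x + a y` (`rel_one_add_add`), `LI3 (a x) (a y)` gives `ρ = 1`.
* `a_pp_add`: `a (s^p + x) = a (s^p (1 + (s⁻¹)^p x)) = τ s^p (1 + τ s⁻¹^p a x)`.
-/

namespace Crest.Agent.MilnorRec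

open Finset

variable {K : Type*} [Field K] {L : Type*} [Field L] {p : ℕ}
variable [Fact p.Prime] [CharP K p] [CharP L p]
variable {φ : K → L} {φ' : L → K}

omit [CharP K p] in
theorem Rich.exists_not_isPP_C (hK : Rich K p) : ∃ x : K, ¬ IsPP p x := by
  obtain ⟨x, hx⟩ := hK 1
  exact ⟨x, not_isPP_of_not_adj hx⟩

theorem Rich.exists_li3_of_C (hK : Rich K p) {x : K} (hx : ¬ IsPP p x) : ∃ y : K, LI3 p x y := by
  obtain ⟨y, hy⟩ := hK x
  exact ⟨y, li3_of_not_adj hx hy⟩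

theorem Rich.exists_li3_C (hK : Rich K p) : ∃ x y : K, LI3 p x y := by
  obtain ⟨x, hx⟩ := hK.exists_not_isPP_C
  obtain ⟨y, hy⟩ := hK.exists_li3_of_C hx
  exact ⟨x, y, hy⟩

omit [Fact p.Prime] [CharP K p] in
theorem not_isPP_pp_mul_C {s x : K} (hs : s ≠ 0) (hx : ¬ IsPP p x) : ¬ IsPP p (s ^ p * x) := by
  intro h
  exact hx ((Rel.isPP_iff (p := p) (u := s ^ p * x) (v := x) ⟨s, hs, rfl⟩).1 h)

theorem not_isPP_pp_add_C {s x : K} (hx : ¬ IsPP p x) : ¬ IsPP p (s ^ p + x) := by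
  intro h
  apply hx
  have := h.sub (isPP_pow (p := p) s)
  simpa using this

theorem LI3.aux_mix_C {x y : K} (hxy : LI3 p x y) {s : K} (hs : s ≠ 0) (s' : K) :
    LI3 p (s ^ p * x) (s' ^ p * x + y) := by
  intro a b c h0
  have h1 := hxy a (b * s + c * s') c (by
    rw [add_pow_char, mul_pow, mul_pow]; linear_combination h0)
  obtain ⟨ha, hb, hc⟩ := h1
  subst hc
  refine ⟨ha, ?_, rfl⟩
  simpa [hs] using hb

section
variable (h : LinPair p φ φ') (hK : Rich K p) {a : K → L}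
  (ha : ∀ x, ¬ IsPP p x → Nrm p φ x (a x)) {τ : K → L} (hτ0 : τ 0 = 0)
  (hτ1 : ∀ s, s ≠ 0 → τ s ≠ 0)
  (hτ : ∀ s x, s ≠ 0 → ¬ IsPP p x → a (s ^ p * x) = τ s ^ p * a x)

include h ha in
theorem LinPair.a_ne_zero_C {x : K} (hx : ¬ IsPP p x) : a x ≠ 0 := by
  intro h0
  have := h.nrm_not_isPP hx (ha x hx)
  rw [h0] at this
  exact this isPP_zero

include h hK ha hτ0 hτ1 hτ

theorem LinPair.tau_one : τ 1 = 1 := by
  obtain ⟨x, hx⟩ := hK.exists_not_isPP_C
  have h1 := hτ 1 x one_ne_zero hx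
  rw [one_pow, one_mul] at h1
  have h2 : τ 1 ^ p = 1 ^ p := by
    have h3 : (τ 1 ^ p - 1) * a x = 0 := by linear_combination -h1
    rcases mul_eq_zero.1 h3 with h4 | h4
    · rw [one_pow]; linear_combination h4
    · exact absurd h4 (h.a_ne_zero_C ha hx)
  exact pow_p_injective h2

theorem LinPair.tau_mul (s s' : K) : τ (s * s') = τ s * τ s' := by
  by_cases hs : s = 0
  · subst hs; simp [hτ0]
  by_cases hs' : s' = 0
  · subst hs'; simp [hτ0]
  obtain ⟨x, hx⟩ := hK.exists_not_isPP_C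
  have h1 := hτ (s * s') x (mul_ne_zero hs hs') hx
  have h2 := hτ s (s' ^ p * x) hs (not_isPP_pp_mul_C hs' hx)
  have h3 := hτ s' x hs' hx
  have e : (s * s') ^ p * x = s ^ p * (s' ^ p * x) := by rw [mul_pow, mul_assoc]
  rw [e, h2, h3] at h1
  have h4 : (τ (s * s') ^ p - (τ s * τ s') ^ p) * a x = 0 := by
    rw [mul_pow]; linear_combination -h1
  rcases mul_eq_zero.1 h4 with h5 | h5
  · exact pow_p_injective (sub_eq_zero.1 h5)
  · exact absurd h5 (h.a_ne_zero_C ha hx)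

theorem LinPair.tau_add (s s' : K) : τ (s + s') = τ s + τ s' := by
  by_cases hs : s = 0
  · subst hs; simp [hτ0]
  by_cases hs' : s' = 0
  · subst hs'; simp [hτ0]
  obtain ⟨x, y, hxy⟩ := hK.exists_li3_C
  have hx : ¬ IsPP p x := hxy.not_isPP_left
  have hp : p ≠ 0 := (Fact.out : p.Prime).ne_zero
  -- right hand side
  have r1 : a (s ^ p * x + (s' ^ p * x + y)) = a (s ^ p * x) + a (s' ^ p * x + y) :=
    h.a_add ha (hxy.aux_mix_C hs s')
  have hl : LI3 p (s' ^ p * x) y := by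
    have := hxy.aux_mix_C hs' 0
    simpa [hp] using this
  have r2 : a (s' ^ p * x + y) = a (s' ^ p * x) + a y := h.a_add ha hl
  rw [r2, hτ s x hs hx, hτ s' x hs' hx] at r1
  have e : s ^ p * x + (s' ^ p * x + y) = (s + s') ^ p * x + y := by
    rw [add_pow_char]; ring
  rw [e] at r1
  have key : τ (s + s') ^ p * a x = (τ s + τ s') ^ p * a x := by
    by_cases hss : s + s' = 0
    · rw [hss, zero_pow hp, zero_mul, zero_add] at r1
      rw [hss, hτ0, zero_pow hp, add_pow_char]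
      linear_combination r1
    · have hl2 : LI3 p ((s + s') ^ p * x) y := by
        have := hxy.aux_mix_C hss 0
        simpa [hp] using this
      have r3 : a ((s + s') ^ p * x + y) = a ((s + s') ^ p * x) + a y := h.a_add ha hl2
      rw [hτ (s + s') x hss hx] at r3
      rw [add_pow_char]
      linear_combination r1 - r3
  exact pow_p_injective (mul_right_cancel₀ (h.a_ne_zero_C ha hx) key)

theorem LinPair.a_one_add {x : K} (hx : ¬ IsPP p x) : a (1 + x) = 1 + a x := by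
  obtain ⟨y, hxy⟩ := hK.exists_li3_of_C hx
  have hy : ¬ IsPP p y := hxy.not_isPP_right
  have hl : LI3 p (1 + x) y := by
    have := hxy.add_left 1
    simpa using this
  have h1x : ¬ IsPP p (1 + x) := hl.not_isPP_left
  have h1xy : ¬ IsPP p (1 + x + y) := hl.not_isPP_add
  have r1 : a (1 + x + y) = a (1 + x) + a y := h.a_add ha hl
  obtain ⟨ρ, hρ, e1⟩ : Rel p (a (1 + x)) (1 + a x) := (ha _ h1x).1.trans (ha x hx).2
  obtain ⟨σ, hσ, e2⟩ : Rel p (a (1 + x + y)) (1 + a x + a y) :=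
    (ha _ h1xy).1.trans (h.rel_one_add_add hxy (ha x hx) (ha y hy))
  have hli := h.a_li3 ha hxy
  have h3 := hli (ρ - σ) (ρ - σ) (1 - σ) (by
    rw [sub_pow_char, sub_pow_char, one_pow]
    rw [e1, e2] at r1
    linear_combination -r1)
  obtain ⟨h4, -, h5⟩ := h3
  have hσ1 : σ = 1 := (sub_eq_zero.1 h5).symm
  have hρ1 : ρ = 1 := by rw [sub_eq_zero.1 h4, hσ1]
  rw [e1, hρ1, one_pow, one_mul]

theorem LinPair.a_pp_add (s : K) {x : K} (hx : ¬ IsPP p x) : a (s ^ p + x) = τ s ^ p + a x := by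
  have hp : p ≠ 0 := (Fact.out : p.Prime).ne_zero
  by_cases hs : s = 0
  · subst hs; simp [hτ0, hp]
  have hsi : s⁻¹ ≠ 0 := inv_ne_zero hs
  have hx' : ¬ IsPP p (s⁻¹ ^ p * x) := not_isPP_pp_mul_C hsi hx
  have hx'' : ¬ IsPP p (1 + s⁻¹ ^ p * x) := by
    have := not_isPP_pp_add_C (s := 1) hx'
    simpa using this
  have e : s ^ p + x = s ^ p * (1 + s⁻¹ ^ p * x) := by
    rw [inv_pow]; field_simp
  have t1 : τ s * τ s⁻¹ = 1 := by
    rw [← h.tau_mul hK ha hτ0 hτ1 hτ s s⁻¹, mul_inv_cancel₀ hs, h.tau_one hK ha hτ0 hτ1 hτ]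
  rw [e, hτ s _ hs hx'', h.a_one_add hK ha hτ0 hτ1 hτ hx', hτ s⁻¹ x hsi hx]
  have t2 : τ s ^ p * τ s⁻¹ ^ p = 1 := by rw [← mul_pow, t1, one_pow]
  linear_combination (a x) * t2

end

end Crest.Agent.MilnorRec
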