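import Mathlib
import Crest.Agent.MilnorRec.Basic
import Crest.Agent.MilnorRec.PB
import Crest.Agent.MilnorRec.Pair
import Crest.Agent.MilnorRec.CollinA
import Crest.Agent.MilnorRec.CollinB
import Crest.Agent.MilnorRec.CollinC

/-!
Row 9 (S0010), task I2c: the additive lift.
`α u := a u` if `u ∉ K^p`, `α (s^p) := τ s^p`.
Additivity: both in `K^p`: `tau_add`; one in `K^p`: `a_pp_add`; both outside: if `LI3 u v` use `a_add`,
otherwise (`li3_iff`) `v = c^p + b^p u`, `b ≠ 0`, and `u + v = c^p + (1+b)^p u`: use `a_pp_add`, `hτ`,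
`tau_add`, `tau_one` (case `1 + b = 0` separately).
-/

namespace Crest.Agent.MilnorRec

open Finset

variable {K : Type*} [Field K] {L : Type*} [Field L] {p : ℕ}
variable [Fact p.Prime] [CharP K p] [CharP L p]
variable {φ : K → L} {φ' : L → K}

theorem LinPair.exists_additive_lift (h : LinPair p φ φ') (hK : Rich K p) :
    ∃ α : K → L, α 1 = 1 ∧ (∀ u v, α (u + v) = α u + α v) ∧ ∀ u, u ≠ 0 → Rel p (α u) (φ u) := by
  classical
  have hp : p.Prime := Fact.out
  have hex : ∀ x : K, ∃ v : L, ¬ IsPP p x → Nrm p φ x v := fun x => by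
    by_cases hx : IsPP p x
    · exact ⟨0, fun h => absurd hx h⟩
    · obtain ⟨v, hv⟩ := h.exists_nrm hx
      exact ⟨v, fun _ => hv⟩
  choose a ha using hex
  obtain ⟨τ, hτ0, hτ1, hτ⟩ := h.exists_tau hK ha
  have t1 : τ 1 = 1 := h.tau_one hK ha hτ0 hτ1 hτ
  have tadd : ∀ s s', τ (s + s') = τ s + τ s' := h.tau_add hK ha hτ0 hτ1 hτ
  have apa : ∀ (s : K) {x : K}, ¬ IsPP p x → a (s ^ p + x) = τ s ^ p + a x :=
    fun s {x} hx => h.a_pp_add hK ha hτ0 hτ1 hτ s hx
  let α : K → L := fun u => if hu : IsPP p u then τ (hu.choose) ^ p else a u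
  have αpp : ∀ s : K, α (s ^ p) = τ s ^ p := by
    intro s
    have hs : IsPP p (s ^ p) := isPP_pow s
    have e : hs.choose = s := pow_p_injective hs.choose_spec
    change (if hu : IsPP p (s ^ p) then τ (hu.choose) ^ p else a (s ^ p)) = _
    rw [dif_pos hs, e]
  have αn : ∀ u, ¬ IsPP p u → α u = a u := fun u hu => dif_neg hu
  have key : ∀ (s v : K), ¬ IsPP p v → α (s ^ p + v) = α (s ^ p) + α v := by
    intro s v hv
    have h1 : ¬ IsPP p (s ^ p + v) := fun h' => hv (by simpa using h'.sub (isPP_pow s))
    rw [αpp, αn _ hv, αn _ h1, apa s hv]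
  refine ⟨α, ?_, ?_, ?_⟩
  · have := αpp 1
    rw [one_pow, t1, one_pow] at this
    exact this
  · intro u v
    by_cases hu : IsPP p u
    · obtain ⟨s, rfl⟩ := hu
      by_cases hv : IsPP p v
      · obtain ⟨t, rfl⟩ := hv
        rw [← add_pow_char, αpp, αpp, αpp, tadd, add_pow_char]
      · exact key s v hv
    · by_cases hv : IsPP p v
      · obtain ⟨t, rfl⟩ := hv
        rw [add_comm, key t u hu, add_comm]
      · by_cases hli : LI3 p u v
        · rw [αn _ hu, αn _ hv, αn _ hli.not_isPP_add, h.a_add ha hli]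
        · rw [li3_iff] at hli
          push Not at hli
          obtain ⟨c, b, hvb⟩ := hli hu
          have hb : b ≠ 0 := by
            rintro rfl
            apply hv
            rw [hvb, zero_pow hp.ne_zero, zero_mul, add_zero]
            exact isPP_pow c
          have hmul : ∀ r : K, r ≠ 0 → ¬ IsPP p (r ^ p * u) := by
            intro r hr h'
            exact hu ((rel_mul_left_of_isPP (v := u) (pow_ne_zero p hr) (isPP_pow r)).isPP_iff.1 h')
          have av : a v = τ c ^ p + τ b ^ p * a u := by
            rw [hvb, apa c (hmul b hb), hτ b u hb hu]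
          have e : u + v = c ^ p + (1 + b) ^ p * u := by
            rw [hvb, add_pow_char, one_pow]; ring
          by_cases hb1 : 1 + b = 0
          · have e2 : u + v = c ^ p := by
              rw [e, hb1, zero_pow hp.ne_zero, zero_mul, add_zero]
            have h3 : 1 + τ b ^ p = 0 := by
              have h4 := tadd 1 b
              rw [hb1, hτ0, t1] at h4
              have h5 : (1 + τ b) ^ p = 0 := by rw [← h4, zero_pow hp.ne_zero]
              rw [add_pow_char, one_pow] at h5
              exact h5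
            rw [e2, αpp, αn _ hu, αn _ hv, av]
            linear_combination (-(a u)) * h3
          · have h1 : ¬ IsPP p (u + v) := by
              rw [e]
              intro h'
              exact hmul _ hb1 (by simpa using h'.sub (isPP_pow c))
            rw [αn _ h1, αn _ hu, αn _ hv, av, e, apa c (hmul _ hb1), hτ (1 + b) u hb1 hu, tadd, t1,
              add_pow_char, one_pow]
            ring
  · intro u hu0
    by_cases hu : IsPP p u
    · obtain ⟨s, rfl⟩ := hu
      rw [αpp]
      have hs : s ≠ 0 := by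
        rintro rfl
        exact hu0 (zero_pow hp.ne_zero)
      have h1 : Rel p (τ s ^ p) 1 := rel_one_of_isPP (pow_ne_zero _ (hτ1 s hs)) (isPP_pow _)
      have h2 : Rel p (φ (s ^ p)) 1 :=
        rel_one_of_isPP (h.fwd.ne_zero _ hu0) (h.fwd.pp _ hu0 (isPP_pow s))
      exact h1.trans h2.symm
    · rw [αn _ hu]
      exact (ha u hu).1

end Crest.Agent.MilnorRec
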