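import Mathlib
import Crest.Agent.MilnorRec.Basic
import Crest.Agent.MilnorRec.PB

/-!
Row 9 (S0010), task B: existence of derivations of a field `L` of characteristic `p` with prescribed
kernel.

Proof of `exists_derivation`: by Zorn take a subfield `N ⊇ M` maximal with `z ∉ N`.  For `w ∉ N` the
set `N[w] = {∑_{i<p} n_i w^i}` is a subfield (`w^p ∈ N`; `v⁻¹ = (v^p)⁻¹ v^(p-1)`) strictly bigger than
`N`, so `z ∈ N[w]`; `N[z] ⊆ N[w]`, `dim_N N[z] = p` (task PB), `dim_N N[w] ≤ p`, hence `w ∈ N[z]`.  So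
`(z^i)_{i<p}` is an `N`-basis of `L`; let `D` be the `N`-linear map with `D (z^i) = i z^i`.  Then
`D (z^m) = m z^m` for all `m : ℕ` (`z^p ∈ N`), which gives the Leibniz rule on basis vectors, hence
everywhere by bilinearity.
-/

namespace Crest.Agent.MilnorRec

open Finset

variable {L : Type*} [Field L] {p : ℕ} [Fact p.Prime] [CharP L p]

/-- Zorn: a subfield maximal among those containing `M` and not containing `z`. -/
theorem exists_maximal_subfield (M : Subfield L) (z : L) (hz : z ∉ M) :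
    ∃ N : Subfield L, M ≤ N ∧ z ∉ N ∧ ∀ N' : Subfield L, N ≤ N' → z ∉ N' → N' ≤ N := by
  obtain ⟨N, hMN, hN⟩ := zorn_le_nonempty₀ {N : Subfield L | z ∉ N} (by
    intro c hc hchain y hy
    refine ⟨sSup c, ?_, fun w hw => le_sSup hw⟩
    intro hmem
    rw [Subfield.mem_sSup_of_directedOn ⟨y, hy⟩ hchain.directedOn] at hmem
    obtain ⟨N, hNc, hzN⟩ := hmem
    exact hc hNc hzN) M hz
  exact ⟨N, hMN, hN.prop, fun N' hle hz' => hN.le_of_ge hz' hle⟩

open IntermediateField in
/-- for a maximal `N` the powers of `z` span `L` over `N` -/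
theorem span_pow_eq_top (N : Subfield L) (hN : ∀ a : L, a ^ p ∈ N) (z : L) (hz : z ∉ N)
    (hmax : ∀ N' : Subfield L, N ≤ N' → z ∉ N' → N' ≤ N) :
    ⊤ ≤ Submodule.span N (Set.range (fun i : Fin p => z ^ (i : ℕ))) := by
  have hli := linearIndependent_pow_of_not_mem N hN z hz
  have hp : 0 < p := (Fact.out : p.Prime).pos
  intro w _
  by_cases hw : w ∈ N
  · have h1 : (1 : L) ∈ Submodule.span N (Set.range (fun i : Fin p => z ^ (i : ℕ))) :=
      Submodule.subset_span ⟨⟨0, hp⟩, by simp⟩
    have h2 := Submodule.smul_mem _ (⟨w, hw⟩ : N) h1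
    have h3 : (⟨w, hw⟩ : N) • (1 : L) = w := by
      rw [Subfield.smul_def]; simp
    rwa [h3] at h2
  · -- the field `N(w)`
    have hint : IsIntegral N w := by
      refine ⟨Polynomial.X ^ p - Polynomial.C (⟨w ^ p, hN w⟩ : N),
        Polynomial.monic_X_pow_sub_C _ hp.ne', ?_⟩
      simp only [Polynomial.eval₂_sub, Polynomial.eval₂_pow, Polynomial.eval₂_X,
        Polynomial.eval₂_C]
      exact sub_self _
    have hdeg : (minpoly N w).natDegree ≤ p := by
      have hne : (Polynomial.X ^ p - Polynomial.C (⟨w ^ p, hN w⟩ : N)) ≠ 0 :=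
        (Polynomial.monic_X_pow_sub_C _ hp.ne').ne_zero
      have hdvd : minpoly N w ∣ (Polynomial.X ^ p - Polynomial.C (⟨w ^ p, hN w⟩ : N)) := by
        apply minpoly.dvd
        simp only [Polynomial.aeval_def, Polynomial.eval₂_sub, Polynomial.eval₂_pow,
          Polynomial.eval₂_X, Polynomial.eval₂_C]
        exact sub_self _
      calc (minpoly N w).natDegree
          ≤ (Polynomial.X ^ p - Polynomial.C (⟨w ^ p, hN w⟩ : N)).natDegree :=
            Polynomial.natDegree_le_of_dvd hdvd hne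
        _ = p := Polynomial.natDegree_X_pow_sub_C
    set F : IntermediateField N L := N⟮w⟯ with hF
    have hwF : w ∈ F := mem_adjoin_simple_self N w
    have hNF : N ≤ F.toSubfield := by
      intro a ha
      exact F.algebraMap_mem (⟨a, ha⟩ : N)
    have hzF : z ∈ F := by
      by_contra hzF
      exact hw (hmax F.toSubfield hNF hzF hwF)
    have : FiniteDimensional N F := adjoin.finiteDimensional hint
    have hfr : Module.finrank N F = (minpoly N w).natDegree := adjoin.finrank hint
    have hle : Submodule.span N (Set.range (fun i : Fin p => z ^ (i : ℕ))) ≤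
        F.toSubalgebra.toSubmodule := by
      rw [Submodule.span_le]
      rintro _ ⟨i, rfl⟩
      exact pow_mem hzF _
    have : FiniteDimensional N F.toSubalgebra.toSubmodule := ‹FiniteDimensional N F›
    have heq := Submodule.eq_of_le_of_finrank_le hle (by
      rw [finrank_span_eq_card hli, Fintype.card_fin]
      exact (hfr.le.trans hdeg))
    rw [heq]
    exact hwF

theorem exists_derivation (M : Subfield L) (hM : ∀ a : L, a ^ p ∈ M) (z : L) (hz : z ∉ M) :
    ∃ D : Derivation ℤ L L, (∀ m ∈ M, D m = 0) ∧ D z = z := by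
  obtain ⟨N, hMN, hzN, hmax⟩ := exists_maximal_subfield M z hz
  have hN : ∀ a : L, a ^ p ∈ N := fun a => hMN (hM a)
  have hp : 0 < p := (Fact.out : p.Prime).pos
  have hp1 : 1 < p := (Fact.out : p.Prime).one_lt
  have hli := linearIndependent_pow_of_not_mem N hN z hzN
  have hsp := span_pow_eq_top N hN z hzN hmax
  let B : Module.Basis (Fin p) N L := Module.Basis.mk hli hsp
  have hB : ∀ i, B i = z ^ (i : ℕ) := fun i => by simp [B]
  let D₀ : L →ₗ[N] L := B.constr N (fun i => ((i : ℕ) : L) * z ^ (i : ℕ))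
  have hD₀ : ∀ i : Fin p, D₀ (z ^ (i : ℕ)) = ((i : ℕ) : L) * z ^ (i : ℕ) := by
    intro i
    rw [← hB i]
    simp only [D₀, Module.Basis.constr_basis]
    rw [hB i]
  -- `D₀ (z ^ m) = m z ^ m`
  have hpow : ∀ m : ℕ, D₀ (z ^ m) = (m : L) * z ^ m := by
    intro m
    have hm : z ^ m = (⟨(z ^ p) ^ (m / p), pow_mem (hN z) _⟩ : N) • z ^ (m % p) := by
      rw [Subfield.smul_def, smul_eq_mul]
      show z ^ m = (z ^ p) ^ (m / p) * z ^ (m % p)
      rw [← pow_mul, ← pow_add, Nat.div_add_mod]
    have hlt : m % p < p := Nat.mod_lt _ hp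
    have hcast : ((m % p : ℕ) : L) = (m : L) := by
      rw [CharP.cast_eq_iff_mod_eq L p]
      exact Nat.mod_mod _ _
    have h1 := hD₀ ⟨m % p, hlt⟩
    simp only at h1
    conv_lhs => rw [hm]
    rw [map_smul, h1, hcast, Subfield.smul_def, smul_eq_mul]
    conv_rhs => rw [hm, Subfield.smul_def, smul_eq_mul]
    ring
  -- Leibniz
  have hleib : ∀ a b : L, D₀ (a * b) = a * D₀ b + b * D₀ a := by
    let f : L →ₗ[N] L →ₗ[N] L := (LinearMap.mul N L).compr₂ D₀
    let g : L →ₗ[N] L →ₗ[N] L :=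
      (LinearMap.mul N L).compl₂ D₀ + ((LinearMap.mul N L).compl₂ D₀).flip
    have hfg : f = g := by
      apply B.ext
      intro i
      apply B.ext
      intro j
      simp only [f, g, hB, LinearMap.compr₂_apply, LinearMap.mul_apply', LinearMap.add_apply,
        LinearMap.compl₂_apply, LinearMap.flip_apply]
      rw [← pow_add, hpow, hpow, hpow]
      push_cast
      ring
    intro a b
    have := congrArg (fun h : L →ₗ[N] L →ₗ[N] L => h a b) hfg
    simpa [f, g] using this
  refine ⟨Derivation.mk' D₀.toAddMonoidHom.toIntLinearMap (fun a b => ?_), ?_, ?_⟩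
  · simpa [smul_eq_mul] using hleib a b
  · intro m hm
    have h0 := hpow 0
    simp only [pow_zero, Nat.cast_zero, zero_mul] at h0
    have h1 : m = (⟨m, hMN hm⟩ : N) • (1 : L) := by
      rw [Subfield.smul_def]; simp
    change D₀ m = 0
    rw [h1, map_smul, h0, smul_zero]
  · have h1 := hpow 1
    simp only [pow_one, Nat.cast_one, one_mul] at h1
    exact h1

theorem exists_derivation_of_not_isPP {z : L} (hz : ¬ IsPP p z) :
    ∃ D : Derivation ℤ L L, D z = z := by
  obtain ⟨D, -, hD⟩ := exists_derivation (p := p) (frobenius L p).fieldRange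
    (fun a => ⟨a, rfl⟩) z (by
      rintro ⟨b, hb⟩
      exact hz ⟨b, hb⟩)
  exact ⟨D, hD⟩

/-- the subfield `L^p[x]` -/
def adjSubfield (p : ℕ) [Fact p.Prime] [CharP L p] (x : L) : Subfield L where
  carrier := {w | Adj p x w}
  mul_mem' := fun h h' => Adj.mul h h'
  one_mem' := Adj.of_isPP isPP_one
  add_mem' := fun h h' => Adj.add h h'
  zero_mem' := Adj.of_isPP isPP_zero
  neg_mem' := fun h => Adj.neg h
  inv_mem' := fun _ h => Adj.inv h

theorem exists_derivation_of_not_adj {x y : L} (h : ¬ Adj p x y) :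
    ∃ D : Derivation ℤ L L, D x = 0 ∧ D y = y := by
  obtain ⟨D, hD0, hD⟩ := exists_derivation (p := p) (adjSubfield p x)
    (fun a => Adj.of_isPP (isPP_pow a)) y h
  exact ⟨D, hD0 x (Adj.self x), hD⟩

/-- dual pair of derivations for a `p`-independent pair
(`D₁ := D₁' - (D₁' y / y) • D₂`) -/
theorem exists_derivation_pair {x y : L} (hx : ¬ IsPP p x) (h : ¬ Adj p x y) :
    ∃ D₁ D₂ : Derivation ℤ L L, D₁ x = x ∧ D₁ y = 0 ∧ D₂ x = 0 ∧ D₂ y = y := by
  obtain ⟨D₂, h2x, h2y⟩ := exists_derivation_of_not_adj h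
  obtain ⟨D₁', h1x⟩ := exists_derivation_of_not_isPP hx
  have hy : y ≠ 0 := by
    rintro rfl
    exact h (Adj.of_isPP isPP_zero)
  refine ⟨D₁' - (D₁' y / y) • D₂, D₂, ?_, ?_, h2x, h2y⟩
  · simp [h1x, h2x]
  · simp [h2y, hy]

end Crest.Agent.MilnorRec
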