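import Mathlib
import Crest.Agent.MilnorRec.Basic
import Crest.Agent.MilnorRec.PB

/-!
Row 9 (S0010), task B2: how an arbitrary derivation `D : Derivation ℤ L L` of a field of
characteristic `p` acts on `L^p[z]`.
-/

namespace Crest.Agent.MilnorRec

open Finset

variable {L : Type*} [Field L] {p : ℕ} [Fact p.Prime] [CharP L p]

theorem D_pow_p (D : Derivation ℤ L L) (a : L) : D (a ^ p) = 0 := by
  rw [Derivation.leibniz_pow]
  simp [nsmul_eq_mul]

theorem D_isPP (D : Derivation ℤ L L) {a : L} (ha : IsPP p a) : D a = 0 := by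
  obtain ⟨b, rfl⟩ := ha
  exact D_pow_p D b

theorem D_natCast (D : Derivation ℤ L L) (n : ℕ) : D (n : L) = 0 := by
  exact Derivation.map_natCast D n

theorem D_sum (D : Derivation ℤ L L) (a : ℕ → L) (z : L) :
    D (∑ i ∈ range p, a i ^ p * z ^ i) = (∑ i ∈ range p, a i ^ p * ((i : L) * z ^ (i - 1))) * D z := by
  rw [map_sum, Finset.sum_mul]
  refine Finset.sum_congr rfl fun i _ => ?_
  rw [Derivation.leibniz, D_pow_p D (a i), Derivation.leibniz_pow]
  simp only [smul_eq_mul, nsmul_eq_mul, mul_zero, add_zero]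
  ring

theorem D_eq_zero_of_adj (D : Derivation ℤ L L) {z w : L} (hz : D z = 0) (h : Adj p z w) :
    D w = 0 := by
  obtain ⟨a, rfl⟩ := h
  rw [D_sum, hz, mul_zero]

/-- the Jacobian of `(z, w)` vanishes if `w ∈ L^p[z]` -/
theorem D_jacobian (D₁ D₂ : Derivation ℤ L L) {z w : L} (h : Adj p z w) :
    D₁ z * D₂ w = D₂ z * D₁ w := by
  obtain ⟨a, rfl⟩ := h
  rw [D_sum, D_sum]
  ring

theorem D_euler (D : Derivation ℤ L L) {z : L} (hz : D z = z) (a : ℕ → L) :
    D (∑ i ∈ range p, a i ^ p * z ^ i) = ∑ i ∈ range p, ((i : L) * a i) ^ p * z ^ i := by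
  rw [D_sum, hz, Finset.sum_mul]
  refine Finset.sum_congr rfl fun i _ => ?_
  have hi : ((i : L)) ^ p = i := by
    have := map_natCast (frobenius L p) i
    rwa [frobenius_def] at this
  rw [mul_pow, hi]
  rcases Nat.eq_zero_or_pos i with rfl | hpos
  · simp
  · have : z ^ i = z ^ (i - 1) * z := by
      rw [← pow_succ, Nat.sub_add_cancel hpos]
    rw [this]
    ring

theorem adj_D (D : Derivation ℤ L L) {z w : L} (hz : D z = z) (h : Adj p z w) : Adj p z (D w) := by
  obtain ⟨a, rfl⟩ := h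
  exact ⟨fun i => (i : L) * a i, D_euler D hz a⟩

/-- a natural number `0 < i < p` is nonzero in `L` -/
theorem DerivAPI.natCast_ne_zero_of_lt {i : ℕ} (h0 : i ≠ 0) (hi : i < p) : (i : L) ≠ 0 := by
  intro h
  rw [CharP.cast_eq_zero_iff L p] at h
  exact h0 (Nat.eq_zero_of_dvd_of_lt h hi)

/-- natural numbers `< p` are distinct in `L` -/
theorem DerivAPI.natCast_inj_of_lt {i j : ℕ} (hi : i < p) (hj : j < p) (h : (i : L) = (j : L)) : i = j := by
  rw [CharP.natCast_eq_natCast L p] at h
  exact Nat.ModEq.eq_of_lt_of_lt h hi hj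

/-- the kernel of the Euler derivation on `L^p[z]` is `L^p` -/
theorem isPP_of_D_eq_zero (D : Derivation ℤ L L) {z w : L} (hzp : ¬ IsPP p z) (hz : D z = z)
    (hw : Adj p z w) (h : D w = 0) : IsPP p w := by
  obtain ⟨a, rfl⟩ := hw
  rw [D_euler D hz] at h
  have h0 := coeff_eq_zero hzp _ h
  have hp : 0 < p := (Fact.out : p.Prime).pos
  have ha : ∀ i ∈ range p, i ≠ 0 → a i ^ p * z ^ i = 0 := by
    intro i hi hi0
    have := h0 i (mem_range.1 hi)
    have h2 : a i = 0 := by
      rcases mul_eq_zero.1 this with h1 | h1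
      · exact absurd h1 (DerivAPI.natCast_ne_zero_of_lt hi0 (mem_range.1 hi))
      · exact h1
    rw [h2, zero_pow hp.ne', zero_mul]
  rw [Finset.sum_eq_single_of_mem 0 (mem_range.2 hp) ha]
  exact ⟨a 0, by simp⟩

/-- eigenvectors of the Euler derivation on `L^p[z]` -/
theorem eigen (D : Derivation ℤ L L) {z w κ : L} (hzp : ¬ IsPP p z) (hz : D z = z)
    (hw : Adj p z w) (hw0 : w ≠ 0) (hκ : Adj p z κ) (hκ0 : D κ = 0) (h : D w = κ * w) :
    ∃ m : ℕ, m < p ∧ κ = (m : L) ∧ Rel p w (z ^ m) := by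
  obtain ⟨c, rfl⟩ := isPP_of_D_eq_zero D hzp hz hκ hκ0
  obtain ⟨a, rfl⟩ := hw
  have hp : 0 < p := (Fact.out : p.Prime).pos
  rw [D_euler D hz, Finset.mul_sum] at h
  have h' : ∑ i ∈ range p, ((i : L) * a i) ^ p * z ^ i = ∑ i ∈ range p, (c * a i) ^ p * z ^ i := by
    rw [h]
    refine Finset.sum_congr rfl fun i _ => ?_
    rw [mul_pow]; ring
  have hc := coeff_unique hzp _ _ h'
  -- some coefficient is nonzero
  have hex : ∃ m, m < p ∧ a m ≠ 0 := by
    by_contra hcon
    push Not at hcon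
    apply hw0
    refine Finset.sum_eq_zero fun i hi => ?_
    rw [hcon i (mem_range.1 hi), zero_pow hp.ne', zero_mul]
  obtain ⟨m, hm, ham⟩ := hex
  have hcm : c = (m : L) := by
    have := hc m hm
    exact (mul_right_cancel₀ ham this).symm
  have hmp : ((m : L)) ^ p = m := by
    have := map_natCast (frobenius L p) m
    rwa [frobenius_def] at this
  refine ⟨m, hm, by rw [hcm, hmp], a m, ham, ?_⟩
  refine Finset.sum_eq_single_of_mem m (mem_range.2 hm) fun i hi him => ?_
  have h1 := hc i (mem_range.1 hi)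
  have h2 : a i = 0 := by
    by_contra hai
    have h3 : (i : L) = c := mul_right_cancel₀ hai h1
    rw [hcm] at h3
    exact him (DerivAPI.natCast_inj_of_lt (mem_range.1 hi) hm h3)
  rw [h2, zero_pow hp.ne', zero_mul]

/-- logarithmic derivatives only depend on the class modulo `p`-th powers -/
theorem D_div_eq_of_rel (D : Derivation ℤ L L) {u v : L} (h : Rel p u v) : D u / u = D v / v := by
  obtain ⟨r, hr, rfl⟩ := h
  rw [Derivation.leibniz, D_pow_p]
  simp only [smul_eq_mul, mul_zero, add_zero]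
  have hrp : r ^ p ≠ 0 := pow_ne_zero _ hr
  rw [mul_div_mul_left _ _ hrp]

/-- two elements of `L^p[z]` with the same logarithmic Euler derivative are related -/
theorem rel_of_D_div_eq (D : Derivation ℤ L L) {z u v : L} (hzp : ¬ IsPP p z) (hz : D z = z)
    (hu : Adj p z u) (hv : Adj p z v) (hu0 : u ≠ 0) (hv0 : v ≠ 0) (h : D u / u = D v / v) :
    Rel p u v := by
  have hq : Adj p z (u / v) := hu.div hv
  have hD : D (u / v) = 0 := by
    have h1 : u = (u / v) * v := by field_simp
    have h2 : D u = (u / v) * D v + v * D (u / v) := by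
      conv_lhs => rw [h1]
      rw [Derivation.leibniz]
      simp only [smul_eq_mul]
    have h3 : D u = (u / v) * D v := by
      field_simp at h ⊢
      linear_combination h
    rw [h3] at h2
    have h4 : v * D (u / v) = 0 := by linear_combination -h2
    exact (mul_eq_zero.1 h4).resolve_left hv0
  obtain ⟨r, hr⟩ := isPP_of_D_eq_zero D hzp hz hq hD
  have hp : 0 < p := (Fact.out : p.Prime).pos
  refine ⟨r, ?_, ?_⟩
  · rintro rfl
    rw [zero_pow hp.ne'] at hr
    exact (div_ne_zero hu0 hv0) hr.symm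
  · rw [hr]; field_simp

/-- the commutator of two derivations killing `x` and `y`-eigen data: if `⁅D₁, D₂⁆` kills `z` it kills
`L^p[z]` -/
theorem comm_of_adj (D₁ D₂ : Derivation ℤ L L) {z w : L} (hz : D₁ (D₂ z) = D₂ (D₁ z))
    (h : Adj p z w) : D₁ (D₂ w) = D₂ (D₁ w) := by
  have h0 : ⁅D₁, D₂⁆ z = 0 := by
    rw [Derivation.commutator_apply, hz, sub_self]
  have := D_eq_zero_of_adj ⁅D₁, D₂⁆ h0 h
  rw [Derivation.commutator_apply, sub_eq_zero] at this
  exact this

end Crest.Agent.MilnorRec
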