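import Mathlib
import Crest.Agent.MilnorRec.Basic
import Crest.Agent.MilnorRec.PB
import Crest.Agent.MilnorRec.Deriv
import Crest.Agent.MilnorRec.DerivAPI

/-!
Row 9 (S0010), task E1: the local computation (pure field theory in `L`).

Proof of `loc`.  Take `D₁ D₂` from `exists_derivation_pair` (`D₁ x = x, D₁ y = 0, D₂ x = 0, D₂ y = y`).
They commute on `x`, `y`, hence (`comm_of_adj`, Leibniz) on `x', y', y/x', g/x', g`.
Put `A = D₁ x'/x'`, `B = D₂ y'/y'`, `μ = D₁ g/g`, `lam = D₂ g/g`.  `D₂ x' = 0 = D₁ y'`.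
* `D_jacobian` for `h5`: `-A*lam = μ - A`;  for `h6`: `lam - B = -B*μ`.
* `A ≠ 0, 1`, `B ≠ 0, 1`: otherwise `eigen` (κ = 0 or 1) contradicts `h7`/`h8`.
* `A*B ≠ 1` (else `A*(1-B) = 0`).  `μ*(1-A*B) = A*(1-B)`, `lam*(1-A*B) = B*(1-A)`.
* `D₂ A = 0 = D₁ B`, `D₂ μ = D₁ lam` (commutation).  Apply `D₂` resp. `D₁` to the two identities:
  `A*(A-1)*D₂ B = B*(B-1)*D₁ A`.  `κ := D₁ A/(A*(A-1)) = D₂ B/(B*(B-1))` lies in `L^p[x]` and in `L^p[y]`,
  `D₁ κ = 0 = D₂ κ`.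
* `w := (1-A)/A` satisfies `D₁ w = κ*w`; `eigen` gives `κ = m`, `w ~ x^m`; likewise `(1-B)/B ~ y^m'`,
  `κ = m'`, so `m = m'`.
* `m ≠ 0`: else `D₁ A = 0`, `A ∈ L^p`, `D₁ x' = A*x'`, `eigen` contradicts `h7`.
* `e := p - m`, `h := 1/(1-A) = 1 + 1/w = 1 + ρ^p x^e`; `D₁ h/h = -κ*A = e*A = D₁ (x'^e)/x'^e`, so
  `x'^e ~ h` by `rel_of_D_div_eq`.  Same for `y`.
-/

namespace Crest.Agent.MilnorRec

open Finset

variable {L : Type*} [Field L] {p : ℕ} [Fact p.Prime] [CharP L p]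

theorem D_div' (D : Derivation ℤ L L) (a b : L) (hb : b ≠ 0) :
    D (a / b) = (D a * b - a * D b) / b ^ 2 := by
  rw [Derivation.leibniz_div]
  simp only [smul_eq_mul]
  field_simp

theorem D_pow_div (D : Derivation ℤ L L) (a : L) (ha : a ≠ 0) (e : ℕ) :
    D (a ^ e) / a ^ e = (e : L) * (D a / a) := by
  rcases Nat.eq_zero_or_pos e with rfl | he
  · simp
  · rw [Derivation.leibniz_pow]
    simp only [smul_eq_mul, nsmul_eq_mul]
    have : a ^ e = a ^ (e - 1) * a := by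
      rw [← pow_succ]; congr 1; omega
    rw [this]
    field_simp

/-- the logarithmic Euler derivative of `x'` is not a "constant" -/
theorem logD_ne (D : Derivation ℤ L L) {x x' c : L} (hx'0 : x' ≠ 0) (h1 : ¬ IsPP p x)
    (hD : D x = x) (h3 : Adj p x x') (h7 : ∀ m < p, ¬ Rel p x' (x ^ m))
    (hc : Adj p x c) (hc0 : D c = 0) : D x' / x' ≠ c := by
  intro h
  have h' : D x' = c * x' := by
    rw [← h]; field_simp
  obtain ⟨m, hm, -, hrel⟩ := eigen D h1 hD h3 hx'0 hc hc0 h'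
  exact h7 m hm hrel

theorem loc_half (D : Derivation ℤ L L) {x x' κ : L} (hx0 : x ≠ 0) (hx'0 : x' ≠ 0)
    (h1 : ¬ IsPP p x) (hD : D x = x) (h3 : Adj p x x') (h7 : ∀ m < p, ¬ Rel p x' (x ^ m))
    (hκ : Adj p x κ) (hκ0 : D κ = 0)
    (hA : D (D x' / x') = κ * ((D x' / x') * (D x' / x' - 1))) :
    ∃ m : ℕ, 0 < m ∧ m < p ∧ κ = (m : L) ∧
      ∃ ρ : L, ρ ≠ 0 ∧ Rel p (x' ^ (p - m)) (1 + ρ ^ p * x ^ (p - m)) := by
  set A : L := D x' / x' with hAdef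
  have hAadj : Adj p x A := (adj_D D hD h3).div h3
  have hA0 : A ≠ 0 :=
    logD_ne D hx'0 h1 hD h3 h7 (Adj.of_isPP isPP_zero) (map_zero D)
  have hA1 : A ≠ 1 :=
    logD_ne D hx'0 h1 hD h3 h7 (Adj.of_isPP isPP_one) (Derivation.map_one_eq_zero D)
  have hA1' : 1 - A ≠ 0 := sub_ne_zero.mpr (Ne.symm hA1)
  have hone : Adj p x (1 : L) := Adj.of_isPP isPP_one
  have hwadj : Adj p x ((1 - A) / A) := (hone.sub hAadj).div hAadj
  have hw0 : (1 - A) / A ≠ 0 := div_ne_zero hA1' hA0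
  have hDw : D ((1 - A) / A) = κ * ((1 - A) / A) := by
    rw [D_div' D _ _ hA0, map_sub, Derivation.map_one_eq_zero, hA]
    field_simp
    ring
  obtain ⟨m, hm, hκm, hrel⟩ := eigen D h1 hD hwadj hw0 hκ hκ0 hDw
  have hm0 : 0 < m := by
    rcases Nat.eq_zero_or_pos m with rfl | h
    · exfalso
      have hk : κ = 0 := by simpa using hκm
      have hDA : D A = 0 := by rw [hA, hk, zero_mul]
      exact logD_ne D hx'0 h1 hD h3 h7 hAadj hDA rfl
    · exact h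
  refine ⟨m, hm0, hm, hκm, ?_⟩
  obtain ⟨r, hr0, hw⟩ := hrel
  refine ⟨(r * x)⁻¹, inv_ne_zero (mul_ne_zero hr0 hx0), ?_⟩
  have hxp : x ^ p = x ^ m * x ^ (p - m) := by
    rw [← pow_add]; congr 1; omega
  have hv : 1 + ((r * x)⁻¹) ^ p * x ^ (p - m) = (1 - A)⁻¹ := by
    have h2 : ((r * x)⁻¹) ^ p * x ^ (p - m) = ((1 - A) / A)⁻¹ := by
      rw [hw, inv_pow, mul_pow, hxp]
      have := pow_ne_zero m hx0
      have := pow_ne_zero (p - m) hx0
      have := pow_ne_zero p hr0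
      field_simp
    rw [h2]
    field_simp
    ring
  rw [hv]
  have hvadj : Adj p x (1 - A)⁻¹ := (hone.sub hAadj).inv
  refine rel_of_D_div_eq D h1 hD (h3.pow _) hvadj (pow_ne_zero _ hx'0) (inv_ne_zero hA1') ?_
  rw [D_pow_div D x' hx'0, ← hAdef, Derivation.leibniz_inv, map_sub, Derivation.map_one_eq_zero, hA,
    hκm]
  have hcast : ((p - m : ℕ) : L) = -(m : L) := by
    rw [Nat.cast_sub hm.le, CharP.cast_eq_zero, zero_sub]
  rw [hcast]
  simp only [smul_eq_mul]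
  field_simp
  ring

theorem loc {x y x' y' g : L} (hx0 : x ≠ 0) (hy0 : y ≠ 0) (hx'0 : x' ≠ 0) (hy'0 : y' ≠ 0)
    (hg0 : g ≠ 0) (h1 : ¬ IsPP p x) (h2 : ¬ Adj p x y) (h3 : Adj p x x') (h4 : Adj p y y')
    (h5 : Adj p (y / x') (g / x')) (h6 : Adj p (x / y') (g / y'))
    (h7 : ∀ m < p, ¬ Rel p x' (x ^ m)) (h8 : ∀ m < p, ¬ Rel p y' (y ^ m)) :
    ∃ e : ℕ, 0 < e ∧ e < p ∧ (∃ ρ : L, ρ ≠ 0 ∧ Rel p (x' ^ e) (1 + ρ ^ p * x ^ e)) ∧
      (∃ ρ : L, ρ ≠ 0 ∧ Rel p (y' ^ e) (1 + ρ ^ p * y ^ e)) := by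
  obtain ⟨D₁, D₂, h11, h12, h21, h22⟩ := exists_derivation_pair h1 h2
  have hyPP : ¬ IsPP p y := not_isPP_of_not_adj h2
  have hD2x' : D₂ x' = 0 := D_eq_zero_of_adj D₂ h21 h3
  have hD1y' : D₁ y' = 0 := D_eq_zero_of_adj D₁ h12 h4
  obtain ⟨A, hAdef⟩ : ∃ A, A = D₁ x' / x' := ⟨_, rfl⟩
  obtain ⟨B, hBdef⟩ : ∃ B, B = D₂ y' / y' := ⟨_, rfl⟩
  obtain ⟨μ, hμdef⟩ : ∃ μ, μ = D₁ g / g := ⟨_, rfl⟩
  obtain ⟨lam, hlamdef⟩ : ∃ lam, lam = D₂ g / g := ⟨_, rfl⟩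
  have hDx' : D₁ x' = A * x' := by rw [hAdef]; field_simp
  have hDy' : D₂ y' = B * y' := by rw [hBdef]; field_simp
  have hD1g : D₁ g = μ * g := by rw [hμdef]; field_simp
  have hD2g : D₂ g = lam * g := by rw [hlamdef]; field_simp
  have hone : ∀ z : L, Adj p z (1 : L) := fun z => Adj.of_isPP isPP_one
  -- the two Jacobian identities
  have e1 : -A * lam = μ - A := by
    have J := D_jacobian D₁ D₂ h5
    have a1 : D₁ (y / x') = -A * (y / x') := by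
      rw [D_div' D₁ _ _ hx'0, h12, hDx']; field_simp; ring
    have a2 : D₂ (g / x') = lam * (g / x') := by
      rw [D_div' D₂ _ _ hx'0, hD2x', hD2g]; field_simp; ring
    have a3 : D₂ (y / x') = y / x' := by
      rw [D_div' D₂ _ _ hx'0, hD2x', h22]; field_simp; ring
    have a4 : D₁ (g / x') = (μ - A) * (g / x') := by
      rw [D_div' D₁ _ _ hx'0, hDx', hD1g]; field_simp
    rw [a1, a2, a3, a4] at J
    have hne : (y / x') * (g / x') ≠ 0 :=
      mul_ne_zero (div_ne_zero hy0 hx'0) (div_ne_zero hg0 hx'0)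
    have : (-A * lam - (μ - A)) * ((y / x') * (g / x')) = 0 := by linear_combination J
    rcases mul_eq_zero.mp this with h | h
    · exact sub_eq_zero.mp h
    · exact absurd h hne
  have e2 : lam - B = -B * μ := by
    have J := D_jacobian D₁ D₂ h6
    have a1 : D₁ (x / y') = x / y' := by
      rw [D_div' D₁ _ _ hy'0, hD1y', h11]; field_simp; ring
    have a2 : D₂ (g / y') = (lam - B) * (g / y') := by
      rw [D_div' D₂ _ _ hy'0, hDy', hD2g]; field_simp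
    have a3 : D₂ (x / y') = -B * (x / y') := by
      rw [D_div' D₂ _ _ hy'0, h21, hDy']; field_simp; ring
    have a4 : D₁ (g / y') = μ * (g / y') := by
      rw [D_div' D₁ _ _ hy'0, hD1y', hD1g]; field_simp; ring
    rw [a1, a2, a3, a4] at J
    have hne : (x / y') * (g / y') ≠ 0 :=
      mul_ne_zero (div_ne_zero hx0 hy'0) (div_ne_zero hg0 hy'0)
    have : (lam - B - (-B * μ)) * ((x / y') * (g / y')) = 0 := by linear_combination J
    rcases mul_eq_zero.mp this with h | h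
    · exact sub_eq_zero.mp h
    · exact absurd h hne
  -- `A`, `B` are not constants
  have hAadj : Adj p x A := by rw [hAdef]; exact (adj_D D₁ h11 h3).div h3
  have hBadj : Adj p y B := by rw [hBdef]; exact (adj_D D₂ h22 h4).div h4
  have hA0 : A ≠ 0 := by
    rw [hAdef]
    exact logD_ne D₁ hx'0 h1 h11 h3 h7 (Adj.of_isPP isPP_zero) (map_zero D₁)
  have hA1 : A ≠ 1 := by
    rw [hAdef]
    exact logD_ne D₁ hx'0 h1 h11 h3 h7 (Adj.of_isPP isPP_one) (Derivation.map_one_eq_zero D₁)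
  have hB0 : B ≠ 0 := by
    rw [hBdef]
    exact logD_ne D₂ hy'0 hyPP h22 h4 h8 (Adj.of_isPP isPP_zero) (map_zero D₂)
  have hB1 : B ≠ 1 := by
    rw [hBdef]
    exact logD_ne D₂ hy'0 hyPP h22 h4 h8 (Adj.of_isPP isPP_one) (Derivation.map_one_eq_zero D₂)
  have E1 : μ * (1 - A * B) = A * (1 - B) := by linear_combination (-1 : L) * e1 - A * e2
  have E2 : lam * (1 - A * B) = B * (1 - A) := by linear_combination e2 + B * e1
  -- commutation
  have hcx : D₁ (D₂ x) = D₂ (D₁ x) := by rw [h21, h11, h21, map_zero]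
  have hcy : D₁ (D₂ y) = D₂ (D₁ y) := by rw [h22, h12, map_zero]
  have hcx' : D₁ (D₂ x') = D₂ (D₁ x') := comm_of_adj D₁ D₂ hcx h3
  have hC : ∀ a : L, (⁅D₁, D₂⁆ : Derivation ℤ L L) a = D₁ (D₂ a) - D₂ (D₁ a) :=
    fun a => Derivation.commutator_apply a
  have hCy : (⁅D₁, D₂⁆ : Derivation ℤ L L) y = 0 := by rw [hC, hcy, sub_self]
  have hCx' : (⁅D₁, D₂⁆ : Derivation ℤ L L) x' = 0 := by rw [hC, hcx', sub_self]
  have hCyx' : (⁅D₁, D₂⁆ : Derivation ℤ L L) (y / x') = 0 := by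
    rw [D_div' _ _ _ hx'0, hCy, hCx']; simp
  have hcyx' : D₁ (D₂ (y / x')) = D₂ (D₁ (y / x')) := by
    have := hCyx'; rw [hC] at this; exact sub_eq_zero.mp this
  have hcgx' : D₁ (D₂ (g / x')) = D₂ (D₁ (g / x')) := comm_of_adj D₁ D₂ hcyx' h5
  have hCgx' : (⁅D₁, D₂⁆ : Derivation ℤ L L) (g / x') = 0 := by rw [hC, hcgx', sub_self]
  have hCg : (⁅D₁, D₂⁆ : Derivation ℤ L L) g = 0 := by
    have hg : g = (g / x') * x' := by field_simp
    rw [hg, Derivation.leibniz, hCgx', hCx']; simp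
  have hcg : D₁ (D₂ g) = D₂ (D₁ g) := by
    have := hCg; rw [hC] at this; exact sub_eq_zero.mp this
  have hD2A : D₂ A = 0 := D_eq_zero_of_adj D₂ h21 hAadj
  have hD1B : D₁ B = 0 := D_eq_zero_of_adj D₁ h12 hBadj
  have hμlam : D₂ μ = D₁ lam := by
    rw [hμdef, hlamdef, D_div' D₂ _ _ hg0, D_div' D₁ _ _ hg0, hcg]; ring
  have F1 : D₂ μ * (1 - A * B) - μ * A * D₂ B = -A * D₂ B := by
    have := congrArg D₂ E1
    simp only [Derivation.leibniz, map_sub, Derivation.map_one_eq_zero, hD2A, smul_eq_mul] at this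
    linear_combination this
  have F2 : D₂ μ * (1 - A * B) - lam * B * D₁ A = -B * D₁ A := by
    have := congrArg D₁ E2
    simp only [Derivation.leibniz, map_sub, Derivation.map_one_eq_zero, hD1B, smul_eq_mul] at this
    rw [hμlam]
    linear_combination this
  have G : A * (A - 1) * D₂ B = B * (B - 1) * D₁ A := by
    linear_combination -((1 - A * B) * (F1 - F2) + A * D₂ B * E1 - B * D₁ A * E2)
  have hAA : A * (A - 1) ≠ 0 := mul_ne_zero hA0 (sub_ne_zero.mpr hA1)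
  have hBB : B * (B - 1) ≠ 0 := mul_ne_zero hB0 (sub_ne_zero.mpr hB1)
  obtain ⟨κ, hκdef⟩ : ∃ κ, κ = D₁ A / (A * (A - 1)) := ⟨_, rfl⟩
  have hκ2 : κ = D₂ B / (B * (B - 1)) := by
    rw [hκdef, div_eq_div_iff hAA hBB]; linear_combination -G
  have hκx : Adj p x κ := by
    rw [hκdef]; exact (adj_D D₁ h11 hAadj).div (hAadj.mul (hAadj.sub (hone x)))
  have hκy : Adj p y κ := by
    rw [hκ2]; exact (adj_D D₂ h22 hBadj).div (hBadj.mul (hBadj.sub (hone y)))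
  have hD1κ : D₁ κ = 0 := D_eq_zero_of_adj D₁ h12 hκy
  have hD2κ : D₂ κ = 0 := D_eq_zero_of_adj D₂ h21 hκx
  have hA' : D₁ (D₁ x' / x') = κ * ((D₁ x' / x') * (D₁ x' / x' - 1)) := by
    rw [← hAdef, hκdef]; field_simp
  have hB' : D₂ (D₂ y' / y') = κ * ((D₂ y' / y') * (D₂ y' / y' - 1)) := by
    rw [← hBdef, hκ2]; field_simp
  obtain ⟨m, hm0, hm, hκm, hρ⟩ := loc_half D₁ hx0 hx'0 h1 h11 h3 h7 hκx hD1κ hA'
  obtain ⟨m', hm0', hm', hκm', hρ'⟩ := loc_half D₂ hy0 hy'0 hyPP h22 h4 h8 hκy hD2κ hB'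
  have hmm : m = m' := by
    have h : (m : L) = (m' : L) := by rw [← hκm, ← hκm']
    have := (CharP.natCast_eq_natCast L p).mp h
    exact Nat.ModEq.eq_of_lt_of_lt this hm hm'
  subst hmm
  exact ⟨p - m, by omega, by omega, hρ, hρ'⟩

/-- uniqueness of the exponent.  Proof: `v^(e*e') ~ (1+ρ^p x^e)^e' ~ (1+ρ'^p x^e')^e`; apply `D/·` with
`D x = x`: `e*e'*ρ^p x^e/(1+ρ^p x^e) = e*e'*ρ'^p x^e'/(1+ρ'^p x^e')`, so `ρ^p x^e = ρ'^p x^e'`, then
`exp_unique`. -/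
theorem exponent_unique {x v : L} (hx : ¬ IsPP p x) (hv : v ≠ 0) {e e' : ℕ} (he0 : 0 < e) (he : e < p)
    (he0' : 0 < e') (he' : e' < p) {ρ ρ' : L} (hρ : ρ ≠ 0) (hρ' : ρ' ≠ 0)
    (h : Rel p (v ^ e) (1 + ρ ^ p * x ^ e)) (h' : Rel p (v ^ e') (1 + ρ' ^ p * x ^ e')) : e = e' := by
  obtain ⟨D, hD⟩ := exists_derivation_of_not_isPP hx
  have hx0 : x ≠ 0 := by
    rintro rfl; exact hx isPP_zero
  have key : ∀ (e : ℕ) (ρ : L), 0 < e → e < p → Rel p (v ^ e) (1 + ρ ^ p * x ^ e) →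
      (1 + ρ ^ p * x ^ e) ≠ 0 ∧ D v / v * (1 + ρ ^ p * x ^ e) = ρ ^ p * x ^ e := by
    intro e ρ he0 he h
    have hne : (1 + ρ ^ p * x ^ e) ≠ 0 := (h.ne_zero_iff).mp (pow_ne_zero _ hv)
    refine ⟨hne, ?_⟩
    have h1 := D_div_eq_of_rel D h
    rw [D_pow_div D v hv] at h1
    have hxe : D (x ^ e) = (e : L) * x ^ e := by
      have := D_pow_div D x hx0 e
      rw [hD, div_self hx0, mul_one] at this
      rw [← this]
      have := pow_ne_zero e hx0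
      field_simp
    have h2 : D (1 + ρ ^ p * x ^ e) = (e : L) * (ρ ^ p * x ^ e) := by
      rw [map_add, Derivation.map_one_eq_zero, Derivation.leibniz, D_pow_p (p := p) D ρ, hxe]
      simp only [smul_eq_mul]
      ring
    have hec : (e : L) ≠ 0 := by
      intro h0
      rw [CharP.cast_eq_zero_iff L p] at h0
      exact absurd (Nat.le_of_dvd he0 h0) (not_le.mpr he)
    rw [h2] at h1
    have h3 : (e : L) * (D v / v * (1 + ρ ^ p * x ^ e)) = (e : L) * (ρ ^ p * x ^ e) := by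
      rw [← mul_assoc, h1]; field_simp
    exact mul_left_cancel₀ hec h3
  obtain ⟨n1, k1⟩ := key e ρ he0 he h
  obtain ⟨n2, k2⟩ := key e' ρ' he0' he' h'
  have : ρ ^ p * x ^ e = ρ' ^ p * x ^ e' := by
    linear_combination (-(1 + ρ' ^ p * x ^ e')) * k1 + (1 + ρ ^ p * x ^ e) * k2
  exact exp_unique hx he he' hρ this

end Crest.Agent.MilnorRec
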