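import Mathlib
import Crest.Agent.MilnorRec.Basic
import Crest.Agent.MilnorRec.PB
import Crest.Agent.MilnorRec.Pair
import Crest.Agent.MilnorRec.CollinD
import Crest.Agent.MilnorRec.Loc

/-!
Row 9 (S0010), task I3: rigidity, multiplicativity, bijectivity.

* `rigid`: `ψ u = r^p α u`; for `u ∉ K^p` (so `α u ∉ L^p`): `ψ (1+u) = 1 + r^p α u = s^p (1 + α u)`, hence
  `s = 1 = r` (`eq_zero_of_add_mul_eq_zero`); for `u ∈ K^p` write `u = (u + x) - x` with `x ∉ K^p`.
* multiplicativity of the additive lift `α`: for `v ≠ 0` apply `rigid` to `ψ u := α (u v)/α v`.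
* bijectivity: let `β : L → K` be the additive lift of `φ'`; `β ∘ α` is additive, fixes `1` and
  `β (α u) ~ φ' (α u) ~ φ' (φ u) ~ u`; `rigid` (with `α := id`) gives `β ∘ α = id`; symmetrically `α ∘ β = id`.
-/

namespace Crest.Agent.MilnorRec

open Finset

variable {K : Type*} [Field K] {L : Type*} [Field L] {p : ℕ}
variable [Fact p.Prime] [CharP K p] [CharP L p]
variable {φ : K → L} {φ' : L → K}

theorem rigid (hK : ∃ x : K, ¬ IsPP p x) {α ψ : K → L} (hα1 : α 1 = 1) (hψ1 : ψ 1 = 1)
    (hα : ∀ u v, α (u + v) = α u + α v) (hψ : ∀ u v, ψ (u + v) = ψ u + ψ v)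
    (hpp : ∀ u, ¬ IsPP p u → ¬ IsPP p (α u)) (hrel : ∀ u, u ≠ 0 → Rel p (ψ u) (α u)) : ψ = α := by
  -- step 1: outside the `p`-th powers
  have step1 : ∀ u : K, ¬ IsPP p u → ψ u = α u := by
    intro u hu
    have hu0 : u ≠ 0 := by
      rintro rfl
      exact hu isPP_zero
    have h1u : ¬ IsPP p (1 + u) := by
      intro h
      apply hu
      have := h.sub (isPP_one (p := p) (L := K))
      simpa using this
    have h1u0 : 1 + u ≠ 0 := by
      intro h
      rw [h] at h1u
      exact h1u isPP_zero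
    obtain ⟨r, hr, hru⟩ := hrel u hu0
    obtain ⟨s, hs, hsu⟩ := hrel (1 + u) h1u0
    rw [hψ, hα, hψ1, hα1, hru] at hsu
    have key : (1 - s) ^ p + (r - s) ^ p * α u = 0 := by
      rw [sub_pow_char, sub_pow_char, one_pow]
      linear_combination hsu
    obtain ⟨h1, h2⟩ := eq_zero_of_add_mul_eq_zero (hpp u hu) key
    have hs1 : s = 1 := (sub_eq_zero.1 h1).symm
    have hr1 : r = 1 := by rw [sub_eq_zero.1 h2, hs1]
    rw [hru, hr1, one_pow, one_mul]
  obtain ⟨x, hx⟩ := hK
  funext u
  by_cases hu : IsPP p u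
  · have hux : ¬ IsPP p (u + x) := by
      intro h
      apply hx
      have := h.sub hu
      simpa using this
    have h1 := step1 (u + x) hux
    rw [hψ, hα, step1 x hx] at h1
    exact add_right_cancel h1
  · exact step1 u hu

theorem LinPair.exists_ringEquiv (h : LinPair p φ φ') (hK : Rich K p) (hL : Rich L p) :
    ∃ α : K ≃+* L, ∀ u, u ≠ 0 → Rel p (α u) (φ u) := by
  obtain ⟨α, hα1, hα, hαφ⟩ := h.exists_additive_lift hK
  obtain ⟨β, hβ1, hβ, hβφ⟩ := h.symm.exists_additive_lift hL
  have hK' : ∃ x : K, ¬ IsPP p x := by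
    obtain ⟨y, hy⟩ := hK 1
    exact ⟨y, not_isPP_of_not_adj hy⟩
  have hL' : ∃ x : L, ¬ IsPP p x := by
    obtain ⟨y, hy⟩ := hL 1
    exact ⟨y, not_isPP_of_not_adj hy⟩
  have hα0 : α 0 = 0 := by
    have := hα 0 0
    rw [add_zero] at this
    exact (left_eq_add.1 this)
  have hαne : ∀ u, u ≠ 0 → α u ≠ 0 := fun u hu =>
    (hαφ u hu).ne_zero_iff.2 (h.fwd.ne_zero u hu)
  have hβne : ∀ w, w ≠ 0 → β w ≠ 0 := fun w hw =>
    (hβφ w hw).ne_zero_iff.2 (h.bwd.ne_zero w hw)
  have hαpp : ∀ u, ¬ IsPP p u → ¬ IsPP p (α u) := by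
    intro u hu hαu
    have hu0 : u ≠ 0 := by
      rintro rfl
      exact hu isPP_zero
    exact hu ((h.toMultPair.isPP_iff hu0).1 ((hαφ u hu0).isPP_iff.1 hαu))
  -- multiplicativity
  have hmul : ∀ u v, α (u * v) = α u * α v := by
    intro u v
    by_cases hv : v = 0
    · subst hv
      rw [mul_zero, hα0, mul_zero]
    have hαv := hαne v hv
    have := rigid (p := p) hK' (α := α) (ψ := fun u => α (u * v) / α v) hα1
      (by simp only [one_mul]; exact div_self hαv) hα
      (by intro a b; simp only [add_mul, hα, add_div]) hαpp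
      (by
        intro a ha
        have h1 : Rel p (α (a * v)) (α a * α v) :=
          ((hαφ (a * v) (mul_ne_zero ha hv)).trans (h.fwd.mul a v ha hv)).trans
            ((hαφ a ha).mul (hαφ v hv)).symm
        have h2 := h1.div (Rel.refl (p := p) (α v))
        rwa [mul_div_assoc, div_self hαv, mul_one] at h2)
    have h3 : α (u * v) / α v = α u := congrFun this u
    rw [div_eq_iff hαv] at h3
    exact h3
  -- bijectivity
  have hβα : (fun u => β (α u)) = (fun u : K => u) := by
    refine rigid (p := p) hK' (α := fun u : K => u) (ψ := fun u => β (α u)) rfl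
      (by simp only [hα1, hβ1]) (fun _ _ => rfl) (by intro a b; simp only [hα, hβ])
      (fun _ hu => hu) ?_
    intro u hu
    exact ((hβφ (α u) (hαne u hu)).trans
      (h.bwd.rel (h.fwd.ne_zero u hu) (hαφ u hu))).trans (h.left_inv u hu)
  have hαβ : (fun w => α (β w)) = (fun w : L => w) := by
    refine rigid (p := p) hL' (α := fun w : L => w) (ψ := fun w => α (β w)) rfl
      (by simp only [hα1, hβ1]) (fun _ _ => rfl) (by intro a b; simp only [hα, hβ])
      (fun _ hu => hu) ?_
    intro w hw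
    exact ((hαφ (β w) (hβne w hw)).trans
      (h.fwd.rel (h.bwd.ne_zero w hw) (hβφ w hw))).trans (h.right_inv w hw)
  refine ⟨{ toFun := α, invFun := β, left_inv := fun u => congrFun hβα u,
            right_inv := fun w => congrFun hαβ w, map_mul' := hmul, map_add' := hα }, ?_⟩
  intro u hu
  exact hαφ u hu

/-- uniqueness statement used in the final `∃!`.  If `β u ^ E ~ α u` for all `u ≠ 0` (`0 < E < p`) then,
for `x ∉ K^p`, `β (1+x)^E ~ α (1+x) = 1 + α x = 1 + ρ^p (β x)^E` while `β (1+x)^1 = 1 + 1^p (β x)^1`; so `E = 1`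
by `exponent_unique` and then `α = β` by `rigid`. -/
theorem ringEquiv_unique (hK : ∃ x : K, ¬ IsPP p x) (α β : K ≃+* L) {E : ℕ} (hE0 : 0 < E) (hE : E < p)
    (h : ∀ u, u ≠ 0 → Rel p (α u) (β u ^ E)) : α = β := by
  have hp : p.Prime := Fact.out
  have hβpp : ∀ u, ¬ IsPP p u → ¬ IsPP p (β u) := by
    rintro u hu ⟨b, hb⟩
    apply hu
    refine ⟨β.symm b, ?_⟩
    rw [← map_pow, hb, RingEquiv.symm_apply_apply]
  have hE1 : E = 1 := by
    obtain ⟨x, hx⟩ := hK
    have hx0 : x ≠ 0 := by
      rintro rfl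
      exact hx isPP_zero
    have h1x : ¬ IsPP p (1 + x) := by
      intro h'
      apply hx
      have := h'.sub (isPP_one (p := p) (L := K))
      simpa using this
    have h1x0 : 1 + x ≠ 0 := by
      intro h'
      rw [h'] at h1x
      exact h1x isPP_zero
    obtain ⟨ρ, hρ, hρx⟩ := h x hx0
    have hv : β (1 + x) ≠ 0 := fun h0 => h1x0 ((map_eq_zero_iff β β.injective).1 h0)
    have e1 : Rel p (β (1 + x) ^ E) (1 + ρ ^ p * β x ^ E) := by
      have := (h (1 + x) h1x0).symm
      rwa [map_add α, map_one, hρx] at this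
    have e2 : Rel p (β (1 + x) ^ 1) (1 + (1 : L) ^ p * β x ^ 1) := by
      rw [pow_one, pow_one, one_pow, one_mul, map_add, map_one]
      exact Rel.refl _
    exact exponent_unique (hβpp x hx) hv hE0 hE one_pos hp.one_lt hρ one_ne_zero e1 e2
  subst hE1
  have : (fun u => α u) = (fun u => β u) := by
    refine rigid (p := p) hK (map_one β) (map_one α) (map_add β) (map_add α) hβpp ?_
    intro u hu
    simpa using h u hu
  exact RingEquiv.ext (congrFun this)

end Crest.Agent.MilnorRec
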