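import Mathlib

/-!
Row 9 (S0010), task K: in a finitely generated extension `K` of an algebraically closed field `k` of
characteristic `p`, an element having `p^m`-th roots for all `m` lies in `k`.

Suggested proof.  Suppose `u ∉ k`; then `u` is transcendental over `k`.  Extend `{u}` to a (finite)
transcendence basis `t` of `K/k`; `R = k(t)`, `K/R` is algebraic and finitely generated, hence finite, of
degree `D`.  Let `k₁ = k(t \ {u})`, so `R = k₁(u)` with `u` transcendental over `k₁`.  If `v^q = u`, `q = p^m`,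
then `v` is transcendental over `k₁` and `[k₁(v) : k₁(v^q)] = q` (`RatFunc.finrank_eq_max_natDegree`, or: `1, v, …,
v^(q-1)` are independent over `k₁(v^q)`), so `q ≤ D` for all `m`: contradiction.
(Alternative: the chain `R(v_1) ⊆ R(v_2) ⊆ …` stabilises, so some `v_m` is a `p`-th power in
`k₁(v_m) ≅ RatFunc k₁`, impossible by `RatFunc.intDegree`.)
-/

namespace Crest.Agent.MilnorRec

open Polynomial IntermediateField

/-- a member of an algebraically independent family is not an `n`-th power (`n ≥ 2`) in the field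
generated by the family -/
lemma FieldPerf.pow_ne_of_algebraicIndependent {F E ι : Type*} [Field F] [Field E] [Algebra F E]
    {x : ι → E} (hx : AlgebraicIndependent F x) (i : ι) {n : ℕ} (hn : 2 ≤ n)
    (w : E) (hw : w ∈ IntermediateField.adjoin F (Set.range x)) : w ^ n ≠ x i := by
  intro h
  let e := hx.aevalEquivField
  let w' : FractionRing (MvPolynomial ι F) := e.symm ⟨w, hw⟩
  have h1 : w' ^ n = algebraMap _ _ (MvPolynomial.X i : MvPolynomial ι F) := by
    apply e.injective
    rw [map_pow]
    apply Subtype.ext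
    rw [hx.aevalEquivField_algebraMap_apply_coe]
    simp [w', e, h]
  obtain ⟨y, hy⟩ := IsIntegrallyClosed.exists_algebraMap_eq_of_isIntegral_pow
    (R := MvPolynomial ι F) (x := w') (n := n) (by omega) (h1 ▸ isIntegral_algebraMap)
  rw [← hy, ← map_pow] at h1
  have h2 := IsFractionRing.injective _ _ h1
  have h3 := (MvPolynomial.X_prime (R := F) (i := i)).irreducible
  rw [← h2] at h3
  exact not_irreducible_pow (by omega) h3

theorem FieldPerf.mem_range_of_forall_exists_pow_eq {p : ℕ} [Fact p.Prime] {F K : Type*} [Field F]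
    [Field K] [Algebra F K] [CharP K p] [IsAlgClosed F] [Algebra.EssFiniteType F K]
    (u : K) (hu : ∀ m : ℕ, ∃ v : K, v ^ (p ^ m) = u) : u ∈ (algebraMap F K).range := by
  by_contra hne
  have hp : p.Prime := Fact.out
  have htr : Transcendental F u := by
    intro halg
    exact hne (minpoly.mem_range_of_degree_eq_one F u
      (IsAlgClosed.degree_eq_one_of_irreducible F (minpoly.irreducible halg.isIntegral)))
  have hind : AlgebraicIndepOn F id ({u} : Set K) :=
    (algebraicIndependent_singleton_iff (⟨u, rfl⟩ : ({u} : Set K))).2 htr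
  obtain ⟨t, hut, ht⟩ := exists_isTranscendenceBasis_superset hind
  have hfin : Finite t := finite_of_isTranscendenceBasis ht
  set R := IntermediateField.adjoin F (Set.range ((↑) : t → K)) with hR
  have h1 : Algebra.IsAlgebraic R K := ht.isAlgebraic_field
  have h2 : Algebra.EssFiniteType R K := .of_comp F _ _
  have h3 : Module.Finite R K := Algebra.finite_of_essFiniteType_of_isAlgebraic
  set D := Module.finrank R K with hD
  obtain ⟨v, hv⟩ := hu D
  have h4 : CharP R p := (RingHom.charP_iff (algebraMap R K) (algebraMap R K).injective p).2 inferInstance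
  have h5 : ExpChar R p := ExpChar.prime hp
  have huR : u ∈ R := IntermediateField.subset_adjoin _ _ ⟨⟨u, hut rfl⟩, rfl⟩
  have h6 : (minpoly R v).natSepDegree = 1 :=
    (minpoly.natSepDegree_eq_one_iff_pow_mem p).2 ⟨D, ⟨⟨u, huR⟩, hv.symm⟩⟩
  obtain ⟨e, y, hy⟩ := (minpoly.natSepDegree_eq_one_iff_eq_X_pow_sub_C p).1 h6
  have hdeg : p ^ e ≤ D := by
    have := minpoly.natDegree_le (A := R) v
    rwa [hy, natDegree_X_pow_sub_C] at this
  have he : e < D := lt_of_lt_of_le (Nat.lt_pow_self hp.one_lt) hdeg
  have hvy : v ^ (p ^ e) = (y : K) := by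
    have := minpoly.aeval R v
    rw [hy] at this
    simpa [sub_eq_zero] using this
  refine FieldPerf.pow_ne_of_algebraicIndependent ht.1 ⟨u, hut rfl⟩ hp.two_le ((y : K) ^ (p ^ (D - e - 1)))
    (pow_mem y.2 _) ?_
  have h7 : p ^ e * (p ^ (D - e - 1) * p) = p ^ D := by
    rw [← pow_succ, ← pow_add]
    congr 1
    omega
  rw [← hvy, ← pow_mul, ← pow_mul, h7, hv]

theorem mem_of_forall_exists_pow_eq {p : ℕ} [Fact p.Prime] {K : Type*} [Field K] [CharP K p]
    (k : Subfield K) [IsAlgClosed k]
    (hK : ∃ s : Finset K, Subfield.closure ((k : Set K) ∪ (s : Set K)) = ⊤)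
    (u : K) (hu : ∀ m : ℕ, ∃ v : K, v ^ (p ^ m) = u) : u ∈ k := by
  have hfg : Algebra.EssFiniteType k K := by
    rw [← IntermediateField.fg_top_iff]
    obtain ⟨s, hs⟩ := hK
    refine ⟨s, ?_⟩
    apply IntermediateField.toSubfield_injective
    have : (IntermediateField.adjoin k (s : Set K)).toSubfield
        = Subfield.closure (Set.range (algebraMap k K) ∪ (s : Set K)) := rfl
    rw [this]
    have h2 : Set.range (algebraMap k K) = (k : Set K) := by
      ext x; simp [Subfield.algebraMap_ofSubfield]
    rw [h2, hs]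
    rfl
  obtain ⟨y, hy⟩ := FieldPerf.mem_range_of_forall_exists_pow_eq (F := k) (p := p) u hu
  rw [← hy]
  exact y.2

lemma FieldPerf.roots {p : ℕ} (hp : p.Prime) {M : Type*} [Field M] (j : Subfield M) [IsAlgClosed j]
    (x : M) (hx : x ∈ j) (m : ℕ) : ∃ v : M, v ^ (p ^ m) = x := by
  obtain ⟨z, hz⟩ := IsAlgClosed.exists_pow_nat_eq (⟨x, hx⟩ : j) (pow_pos hp.pos m)
  exact ⟨z, by simpa using congrArg Subtype.val hz⟩

/-- consequence: every ring isomorphism maps `k` onto `l` -/
theorem map_eq_of_ringEquiv {p : ℕ} [Fact p.Prime] {K L : Type*} [Field K] [Field L] [CharP K p]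
    [CharP L p] (k : Subfield K) (l : Subfield L) [IsAlgClosed k] [IsAlgClosed l]
    (hK : ∃ s : Finset K, Subfield.closure ((k : Set K) ∪ (s : Set K)) = ⊤)
    (hL : ∃ s : Finset L, Subfield.closure ((l : Set L) ∪ (s : Set L)) = ⊤)
    (α : K ≃+* L) : k.map α.toRingHom = l := by
  have hp : p.Prime := Fact.out
  apply le_antisymm
  · rintro _ ⟨x, hx, rfl⟩
    apply mem_of_forall_exists_pow_eq (p := p) l hL
    intro m
    obtain ⟨v, hv⟩ := FieldPerf.roots hp k x hx m
    exact ⟨α v, by simp [← map_pow, hv]⟩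
  · intro y hy
    refine ⟨α.symm y, ?_, by simp⟩
    apply mem_of_forall_exists_pow_eq (p := p) k hK
    intro m
    obtain ⟨v, hv⟩ := FieldPerf.roots hp l y hy m
    exact ⟨α.symm v, by simp [← map_pow, hv]⟩

end Crest.Agent.MilnorRec
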