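import Mathlib
import Crest.Agent.MilnorRec.Basic

/-!
Row 9 (S0010), task J: a finitely generated field of transcendence degree `≥ 2` over an algebraically
closed (perfect suffices) subfield `k` of characteristic `p` is not of the form `K^p[x]`.

Proof.  `Algebra.EssFiniteType k K` from `hK`; by
`exists_isTranscendenceBasis_and_isSeparable_of_perfectField` there is a finite transcendence basis `s`
with `K` separable over `k(s)`.  `K` is formally étale over `MvPolynomial s k`, so
`Ω[K⁄k] ≃ K ⊗ Ω[k[s]⁄k]` is free of rank `#s = trdeg ≥ 2`.  If `K = K^p[x]` then `Ω[K⁄k]` is spanned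
by `D x`, so its rank is `≤ 1`: contradiction.
-/

namespace Crest.Agent.MilnorRec

open KaehlerDifferential TensorProduct

universe u

open scoped IntermediateField.algebraAdjoinAdjoin in
theorem rank_kaehler_of_sep {k K ι : Type u} [Field k] [Field K] [Algebra k K] [Fintype ι]
    (v : ι → K) (hv : AlgebraicIndependent k v)
    [Algebra.IsSeparable (IntermediateField.adjoin k (Set.range v)) K] :
    Module.rank K Ω[K⁄k] = Fintype.card ι := by
  classical
  let A := MvPolynomial ι k
  let S := Algebra.adjoin k (Set.range v)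
  let F := IntermediateField.adjoin k (Set.range v)
  let _ : Algebra A S := (hv.aevalEquiv : A ≃ₐ[k] S).toRingEquiv.toRingHom.toAlgebra
  let _ : Algebra A K := (MvPolynomial.aeval v : A →ₐ[k] K).toRingHom.toAlgebra
  have : IsScalarTower k A K := IsScalarTower.of_algebraMap_eq' (by
    ext x
    simp [RingHom.algebraMap_toAlgebra])
  have : IsScalarTower A S K := IsScalarTower.of_algebraMap_eq' (by
    ext x <;>
    simp [RingHom.algebraMap_toAlgebra])
  have : Algebra.FormallyEtale A S :=
    Algebra.FormallyEtale.of_equiv (A := A)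
      (AlgEquiv.ofRingEquiv (f := (hv.aevalEquiv : A ≃ₐ[k] S).toRingEquiv) (fun x => rfl))
  have : Algebra.FormallyEtale S F := .of_isLocalization (nonZeroDivisors _)
  have : Algebra.FormallyEtale F K := Algebra.FormallyEtale.of_isSeparable _ K
  have : Algebra.FormallyEtale S K := .comp _ F _
  have : Algebra.FormallyEtale A K := .comp _ S _
  rw [← (tensorKaehlerEquivOfFormallyEtale k A K).rank_eq]
  rw [rank_eq_card_basis ((mvPolynomialBasis k ι).baseChange K)]

/-- If `K = K^p[x]`, the module of differentials is spanned by `D x`. -/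
theorem rank_kaehler_le_one_of_adj {p : ℕ} {k K : Type u} [Field k] [Field K] [Algebra k K]
    [CharP K p] (x : K) (h : ∀ y : K, Adj p x y) :
    Module.rank K Ω[K⁄k] ≤ 1 := by
  have key : (⊤ : Submodule K Ω[K⁄k]) ≤ Submodule.span K {D k K x} := by
    rw [← KaehlerDifferential.span_range_derivation, Submodule.span_le]
    rintro _ ⟨y, rfl⟩
    obtain ⟨a, rfl⟩ := h y
    rw [map_sum]
    refine Submodule.sum_mem _ fun i _ => ?_
    rw [Derivation.leibniz, Derivation.leibniz_pow, Derivation.leibniz_pow]
    have hp : ((p : ℕ) : K) = 0 := CharP.cast_eq_zero K p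
    have h0 : p • a i ^ (p - 1) • (D k K) (a i) = 0 := by
      rw [← Nat.cast_smul_eq_nsmul K, hp, zero_smul]
    rw [h0, smul_zero, add_zero]
    refine Submodule.smul_mem _ _ ?_
    rw [← Nat.cast_smul_eq_nsmul K]
    refine Submodule.smul_mem _ _ (Submodule.smul_mem _ _ ?_)
    exact Submodule.subset_span rfl
  calc Module.rank K Ω[K⁄k] = Module.rank K (⊤ : Submodule K Ω[K⁄k]) := (rank_top K _).symm
    _ ≤ Module.rank K (Submodule.span K {D k K x}) := Submodule.rank_mono key
    _ ≤ Cardinal.mk ({D k K x} : Set Ω[K⁄k]) := rank_span_le _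
    _ = 1 := by simp

theorem rich_of_trdeg {p : ℕ} [Fact p.Prime] {K : Type*} [Field K] [CharP K p] (k : Subfield K)
    [IsAlgClosed k] (hK : ∃ s : Finset K, Subfield.closure ((k : Set K) ∪ (s : Set K)) = ⊤)
    (hK2 : 2 ≤ Algebra.trdeg k K) : Rich K p := by
  classical
  have hfin : Algebra.EssFiniteType k K := by
    rw [← IntermediateField.fg_top_iff]
    obtain ⟨s, hs⟩ := hK
    refine ⟨s, ?_⟩
    apply IntermediateField.toSubfield_injective
    rw [IntermediateField.adjoin_toSubfield]
    have : Set.range (algebraMap k K) = (k : Set K) := by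
      ext x
      constructor
      · rintro ⟨a, rfl⟩
        exact a.2
      · intro hx
        exact ⟨⟨x, hx⟩, rfl⟩
    rw [this, hs]
    rfl
  obtain ⟨s, hs, hsep⟩ := exists_isTranscendenceBasis_and_isSeparable_of_perfectField k K
  have hsep' : Algebra.IsSeparable (IntermediateField.adjoin k (Set.range ((↑) : s → K))) K := by
    convert! hsep <;> simp
  have hrank := rank_kaehler_of_sep (k := k) (K := K) ((↑) : s → K) hs.1
  have hcard : Cardinal.mk s = Algebra.trdeg k K := hs.cardinalMk_eq_trdeg
  by_contra hR
  simp only [Rich, not_forall, not_exists, not_not] at hR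
  obtain ⟨x, hx⟩ := hR
  have hle := rank_kaehler_le_one_of_adj (k := k) x hx
  rw [hrank, ← Cardinal.mk_fintype, hcard] at hle
  have : (2 : Cardinal) ≤ 1 := hK2.trans hle
  norm_num at this

end Crest.Agent.MilnorRec
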