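import Mathlib
import Crest.Agent.MilnorRec.Basic
import Crest.Agent.MilnorRec.PB
import Crest.Agent.MilnorRec.Pair
import Crest.Agent.MilnorRec.Loc

/-!
Row 9 (S0010), tasks E2 and H: from the local computation to a global exponent.

`Pair.loc`: apply `loc` to `θ x, θ y, θ (1+x), θ (1+y), θ (1+x+y)`.
 h1: `Pair.isPP_iff`; h2: `Pair.not_adj`; h3/h4: `stein` with `z = x` / `z = y`;
 h5: `stein` with `z = y/(1+x)`, `1 + z = (1+x+y)/(1+x)` and `Half.div`, `Rel.adj_left/right`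
 (`θ z` is not a `p`-th power, otherwise `y = r^p (1+x) ∈ K^p[x]`); h6 symmetric
 (`x/(1+y)` not a `p`-th power: otherwise `x = r^p (1 + y)`, `r ≠ 0`, so `y ∈ K^p[x]`);
 h7/h8: `θ (1+x) ~ (θ x)^m ~ θ (x^m)` gives `1 + x ~ x^m`, contradicting `not_rel_one_add_pow`.

`Pair.exists_exponent`: for `x ∉ K^p` choose `y ∉ K^p[x]` (`Rich`) and get `e x`; by `exponent_unique`
`e x` does not depend on `y`, `e x = e y` for `p`-independent `x, y`; if `x' ∈ K^p[x] \ K^p` and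
`y ∉ K^p[x]` then `y ∉ K^p[x']` (`Adj.trans`), so `e x = e y = e x'`; otherwise `x'∉ K^p[x]` and
`e x = e x'` directly.

`Pair.exponents_inverse`: `θ (1+x)^e ~ 1 + w`, `w = ρ^p (θ x)^e`; apply `θ'`:
`(1+x)^(e*e') ~ θ' (1+w)^e' ~ 1 + ρ'^p (θ' w)^e' ~ 1 + ρ''^p x^(e*e')`; reduce `e*e'` modulo `p`
(`rel_pow_of_modEq`; the residue is nonzero) and compare with `(1+x)^1 ~ 1 + 1^p x^1` via
`exponent_unique`.
-/

namespace Crest.Agent.MilnorRec

open Finset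

variable {K : Type*} [Field K] {L : Type*} [Field L] {p : ℕ}
variable [Fact p.Prime] [CharP K p] [CharP L p]
variable {θ : K → L} {θ' : L → K}

theorem ne_zero_of_not_isPP {x : K} (hx : ¬ IsPP p x) : x ≠ 0 := by
  rintro rfl
  exact hx isPP_zero

theorem one_add_ne_zero_of_not_isPP {x : K} (hx : ¬ IsPP p x) : 1 + x ≠ 0 := by
  intro h0
  apply hx
  have : x = -1 := by linear_combination h0
  rw [this]
  exact isPP_one.neg

/-- a power `z^e`, `0 < e < p`, of a non-`p`-th power is not a `p`-th power -/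
theorem not_isPP_pow {z : K} (hz : ¬ IsPP p z) {e : ℕ} (he0 : 0 < e) (he : e < p) :
    ¬ IsPP p (z ^ e) := by
  rintro ⟨r, hr⟩
  have hp : 0 < p := lt_of_le_of_lt (Nat.zero_le _) he
  have := exp_unique (p := p) hz he hp (r := 1) (r' := r) one_ne_zero (by
    rw [one_pow, one_mul, pow_zero, mul_one, hr])
  omega

theorem Pair.loc (h : Pair p θ θ') {x y : K} (hx : ¬ IsPP p x) (hxy : ¬ Adj p x y) :
    ∃ e : ℕ, 0 < e ∧ e < p ∧ (∃ ρ : L, ρ ≠ 0 ∧ Rel p (θ (1 + x) ^ e) (1 + ρ ^ p * θ x ^ e)) ∧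
      (∃ ρ : L, ρ ≠ 0 ∧ Rel p (θ (1 + y) ^ e) (1 + ρ ^ p * θ y ^ e)) := by
  have hy : ¬ IsPP p y := not_isPP_of_not_adj hxy
  have hx0 : x ≠ 0 := ne_zero_of_not_isPP hx
  have hy0 : y ≠ 0 := ne_zero_of_not_isPP hy
  have hx1 : 1 + x ≠ 0 := one_add_ne_zero_of_not_isPP hx
  have hy1 : 1 + y ≠ 0 := one_add_ne_zero_of_not_isPP hy
  have hA1x : Adj p x (1 + x) := (Adj.of_isPP isPP_one).add (Adj.self x)
  have hxy1 : 1 + x + y ≠ 0 := by
    intro h0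
    apply hxy
    have : y = -(1 + x) := by linear_combination h0
    rw [this]
    exact hA1x.neg
  have hθx : ¬ IsPP p (θ x) := fun hh => hx ((h.toMultPair.isPP_iff hx0).1 hh)
  have hθy : ¬ IsPP p (θ y) := fun hh => hy ((h.toMultPair.isPP_iff hy0).1 hh)
  have key : ∀ u : K, ¬ IsPP p u → ∀ m < p, ¬ Rel p (θ (1 + u)) (θ u ^ m) := by
    intro u hu m hm hrel
    have hu0 : u ≠ 0 := ne_zero_of_not_isPP hu
    have hu1 : 1 + u ≠ 0 := one_add_ne_zero_of_not_isPP hu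
    have h1 : Rel p (θ (1 + u)) (θ (u ^ m)) := hrel.trans (h.fwd.pow hu0 m).symm
    exact not_rel_one_add_pow hu m hm ((h.toMultPair.rel_iff hu1 (pow_ne_zero m hu0)).1 h1)
  refine Crest.Agent.MilnorRec.loc (x := θ x) (y := θ y) (x' := θ (1 + x)) (y' := θ (1 + y))
    (g := θ (1 + x + y)) (h.fwd.ne_zero _ hx0) (h.fwd.ne_zero _ hy0) (h.fwd.ne_zero _ hx1)
    (h.fwd.ne_zero _ hy1) (h.fwd.ne_zero _ hxy1) hθx (h.not_adj hx0 hy0 hxy)
    ((h.stein x hx0 hx1).resolve_left hθx) ((h.stein y hy0 hy1).resolve_left hθy) ?_ ?_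
    (key x hx) (key y hy)
  · -- h5
    have hz0 : y / (1 + x) ≠ 0 := div_ne_zero hy0 hx1
    have hz1e : 1 + y / (1 + x) = (1 + x + y) / (1 + x) := by
      field_simp
    have hz1 : 1 + y / (1 + x) ≠ 0 := by
      rw [hz1e]; exact div_ne_zero hxy1 hx1
    have hnpp : ¬ IsPP p (θ (y / (1 + x))) := by
      intro hh
      have hz : IsPP p (y / (1 + x)) := (h.toMultPair.isPP_iff hz0).1 hh
      apply hxy
      have : y = y / (1 + x) * (1 + x) := by field_simp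
      rw [this]
      exact (Adj.of_isPP hz).mul hA1x
    have hadj := (h.stein _ hz0 hz1).resolve_left hnpp
    rw [hz1e] at hadj
    exact (h.fwd.div hxy1 hx1).adj_right ((h.fwd.div hy0 hx1).adj_left hadj)
  · -- h6
    have hz0 : x / (1 + y) ≠ 0 := div_ne_zero hx0 hy1
    have hz1e : 1 + x / (1 + y) = (1 + x + y) / (1 + y) := by
      field_simp
      ring
    have hz1 : 1 + x / (1 + y) ≠ 0 := by
      rw [hz1e]; exact div_ne_zero hxy1 hy1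
    have hnpp : ¬ IsPP p (θ (x / (1 + y))) := by
      intro hh
      have hz : IsPP p (x / (1 + y)) := (h.toMultPair.isPP_iff hz0).1 hh
      apply hxy
      have : y = (x / (1 + y))⁻¹ * x - 1 := by
        field_simp
        ring
      rw [this]
      exact ((Adj.of_isPP hz.inv).mul (Adj.self x)).sub (Adj.of_isPP isPP_one)
    have hadj := (h.stein _ hz0 hz1).resolve_left hnpp
    rw [hz1e] at hadj
    exact (h.fwd.div hxy1 hy1).adj_right ((h.fwd.div hx0 hy1).adj_left hadj)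

/-- uniqueness of the local exponent at `x` -/
theorem Pair.exponent_unique' (h : Pair p θ θ') {x : K} (hx : ¬ IsPP p x) {e e' : ℕ}
    (he0 : 0 < e) (he : e < p) (he0' : 0 < e') (he' : e' < p)
    (h1 : ∃ ρ : L, ρ ≠ 0 ∧ Rel p (θ (1 + x) ^ e) (1 + ρ ^ p * θ x ^ e))
    (h2 : ∃ ρ : L, ρ ≠ 0 ∧ Rel p (θ (1 + x) ^ e') (1 + ρ ^ p * θ x ^ e')) : e = e' := by
  obtain ⟨ρ, hρ, hr⟩ := h1
  obtain ⟨ρ', hρ', hr'⟩ := h2
  have hx0 : x ≠ 0 := ne_zero_of_not_isPP hx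
  have hx1 : 1 + x ≠ 0 := one_add_ne_zero_of_not_isPP hx
  have hθx : ¬ IsPP p (θ x) := fun hh => hx ((h.toMultPair.isPP_iff hx0).1 hh)
  exact exponent_unique hθx (h.fwd.ne_zero _ hx1) he0 he he0' he' hρ hρ' hr hr'

theorem Pair.exists_exponent (h : Pair p θ θ') (hK : Rich K p) :
    ∃ e : ℕ, 0 < e ∧ e < p ∧ ∀ x : K, ¬ IsPP p x →
      ∃ ρ : L, ρ ≠ 0 ∧ Rel p (θ (1 + x) ^ e) (1 + ρ ^ p * θ x ^ e) := by
  obtain ⟨x₀, hx₀'⟩ := hK 0
  have hx₀ : ¬ IsPP p x₀ := not_isPP_of_not_adj hx₀'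
  obtain ⟨y₀, hy₀⟩ := hK x₀
  obtain ⟨e, he0, he, hex, -⟩ := h.loc hx₀ hy₀
  refine ⟨e, he0, he, ?_⟩
  intro x hx
  by_cases hadj : Adj p x₀ x
  · -- `x ∈ K^p[x₀]`: go through `y₀`
    have hxy : ¬ Adj p x y₀ := fun hh => hy₀ (hadj.trans hh)
    have hy₀' : ¬ IsPP p y₀ := not_isPP_of_not_adj hy₀
    obtain ⟨e1, h10, h1, h1x, h1y⟩ := h.loc hx₀ hy₀
    obtain ⟨e2, h20, h2, h2x, h2y⟩ := h.loc hx hxy
    have a1 : e = e1 := h.exponent_unique' hx₀ he0 he h10 h1 hex h1x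
    have a2 : e1 = e2 := h.exponent_unique' hy₀' h10 h1 h20 h2 h1y h2y
    rw [a1, a2]
    exact h2x
  · obtain ⟨e1, h10, h1, h1x, h1y⟩ := h.loc hx₀ hadj
    have a1 : e = e1 := h.exponent_unique' hx₀ he0 he h10 h1 hex h1x
    rw [a1]
    exact h1y

theorem Pair.exponents_inverse (h : Pair p θ θ') (hK : Rich K p) {e e' : ℕ}
    (he0 : 0 < e) (he : e < p) (he0' : 0 < e') (he' : e' < p)
    (h1 : ∀ x : K, ¬ IsPP p x → ∃ ρ : L, ρ ≠ 0 ∧ Rel p (θ (1 + x) ^ e) (1 + ρ ^ p * θ x ^ e))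
    (h2 : ∀ w : L, ¬ IsPP p w → ∃ ρ : K, ρ ≠ 0 ∧ Rel p (θ' (1 + w) ^ e') (1 + ρ ^ p * θ' w ^ e')) :
    e * e' ≡ 1 [MOD p] := by
  have hp : p.Prime := Fact.out
  obtain ⟨x, hx'⟩ := hK 0
  have hx : ¬ IsPP p x := not_isPP_of_not_adj hx'
  have hx0 : x ≠ 0 := ne_zero_of_not_isPP hx
  have hx1 : 1 + x ≠ 0 := one_add_ne_zero_of_not_isPP hx
  have hθx : ¬ IsPP p (θ x) := fun hh => hx ((h.toMultPair.isPP_iff hx0).1 hh)
  have hθx0 : θ x ≠ 0 := h.fwd.ne_zero _ hx0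
  have hθx1 : θ (1 + x) ≠ 0 := h.fwd.ne_zero _ hx1
  obtain ⟨ρ, hρ, hr⟩ := h1 x hx
  set w : L := ρ ^ p * θ x ^ e with hw
  have hwpp : ¬ IsPP p w := by
    intro hh
    apply not_isPP_pow hθx he0 he
    have : θ x ^ e = w / ρ ^ p := by
      rw [hw]; field_simp
    rw [this]
    exact hh.div (isPP_pow ρ)
  have hw0 : w ≠ 0 := ne_zero_of_not_isPP hwpp
  have hw1 : 1 + w ≠ 0 := one_add_ne_zero_of_not_isPP hwpp
  obtain ⟨ρ', hρ', hr'⟩ := h2 w hwpp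
  -- `θ' (1 + w) ~ (1 + x)^e`
  have a1 : Rel p (θ' (1 + w)) ((1 + x) ^ e) := by
    have b1 : Rel p (θ' (θ (1 + x) ^ e)) (θ' (1 + w)) := h.bwd.rel hw1 hr
    have b2 : Rel p (θ' (θ (1 + x) ^ e)) (θ' (θ (1 + x)) ^ e) := h.bwd.pow hθx1 e
    have b3 : Rel p (θ' (θ (1 + x)) ^ e) ((1 + x) ^ e) := (h.left_inv _ hx1).pow e
    exact b1.symm.trans (b2.trans b3)
  -- `θ' w ~ x^e`
  have a2 : Rel p (θ' w) (x ^ e) := by
    have b1 : Rel p (θ' w) (θ' (θ x ^ e)) := h.bwd.pp_mul hρ (pow_ne_zero e hθx0)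
    have b2 : Rel p (θ' (θ x ^ e)) (θ' (θ x) ^ e) := h.bwd.pow hθx0 e
    have b3 : Rel p (θ' (θ x) ^ e) (x ^ e) := (h.left_inv _ hx0).pow e
    exact b1.trans (b2.trans b3)
  obtain ⟨s, hs, hs'⟩ := a2
  have a3 : Rel p ((1 + x) ^ (e * e')) (1 + ρ' ^ p * θ' w ^ e') := by
    have := (a1.pow e').symm.trans hr'
    rwa [← pow_mul] at this
  set m := e * e' % p with hm
  have hmp : m < p := Nat.mod_lt _ hp.pos
  have hm0 : 0 < m := by
    rcases Nat.eq_zero_or_pos m with h0 | h0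
    · exfalso
      have hdvd : p ∣ e * e' := Nat.dvd_of_mod_eq_zero (hm ▸ h0)
      rcases (Nat.Prime.dvd_mul hp).1 hdvd with hd | hd
      · exact absurd (Nat.le_of_dvd he0 hd) (not_le.2 he)
      · exact absurd (Nat.le_of_dvd he0' hd) (not_le.2 he')
    · exact h0
  have hdecomp : e * e' = m + p * (e * e' / p) := (Nat.mod_add_div _ _).symm
  have a4 : Rel p ((1 + x) ^ m) ((1 + x) ^ (e * e')) :=
    rel_pow_of_modEq hx1 (Nat.mod_modEq _ _)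
  have a5 : 1 + ρ' ^ p * θ' w ^ e' = 1 + (ρ' * s ^ e' * x ^ (e * e' / p)) ^ p * x ^ m := by
    have e1 : x ^ (e * e') = (x ^ (e * e' / p)) ^ p * x ^ m := by
      conv_lhs => rw [hdecomp]
      rw [pow_add, pow_mul, ← pow_mul, ← pow_mul, mul_comm p, mul_comm]
    rw [hs', mul_pow, ← pow_mul x, e1]
    ring
  rw [a5] at a3
  have hfin : m = 1 := by
    refine exponent_unique (p := p) (x := x) (v := 1 + x) hx hx1 hm0 hmp one_pos hp.one_lt
      (ρ := ρ' * s ^ e' * x ^ (e * e' / p)) (ρ' := 1) ?_ one_ne_zero (a4.trans a3) ?_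
    · exact mul_ne_zero (mul_ne_zero hρ' (pow_ne_zero _ hs)) (pow_ne_zero _ hx0)
    · rw [pow_one, one_pow, one_mul, pow_one]
      exact Rel.refl _
  show e * e' % p = 1 % p
  rw [Nat.mod_eq_of_lt hp.one_lt, ← hm, hfin]

/-- the `lin` field for a power of `θ` -/
theorem Pair.lin_aux (h : Pair p θ θ') {e : ℕ}
    (h1 : ∀ x : K, ¬ IsPP p x → ∃ ρ : L, ρ ≠ 0 ∧ Rel p (θ (1 + x) ^ e) (1 + ρ ^ p * θ x ^ e))
    (z : K) (_hz : z ≠ 0) (hz1 : 1 + z ≠ 0) :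
    ∃ r : L, Rel p (θ (1 + z) ^ e) (1 + r ^ p * θ z ^ e) := by
  have hp : p.Prime := Fact.out
  by_cases hpp : IsPP p z
  · refine ⟨0, ?_⟩
    rw [zero_pow hp.ne_zero, zero_mul, add_zero]
    have h1z : IsPP p (1 + z) := isPP_one.add hpp
    exact rel_one_of_isPP (pow_ne_zero _ (h.fwd.ne_zero _ hz1)) ((h.fwd.pp _ hz1 h1z).pow e)
  · obtain ⟨ρ, -, hr⟩ := h1 z hpp
    exact ⟨ρ, hr⟩

/-- assembly of the three statements above (for `z` a `p`-th power take `r = 0`) -/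
theorem Pair.exists_linPair (h : Pair p θ θ') (hK : Rich K p) (hL : Rich L p) :
    ∃ e e' : ℕ, 0 < e ∧ e < p ∧ 0 < e' ∧ e' < p ∧ e * e' ≡ 1 [MOD p] ∧
      LinPair p (fun u => θ u ^ e) (fun w => θ' w ^ e') := by
  obtain ⟨e, he0, he, h1⟩ := h.exists_exponent hK
  obtain ⟨e', he0', he', h2⟩ := h.symm.exists_exponent hL
  have hee' := h.exponents_inverse hK he0 he he0' he' h1 h2
  exact ⟨e, e', he0, he, he0', he', hee',
    { toMultPair := h.toMultPair.pow hee'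
      lin := fun z hz hz1 => h.lin_aux h1 z hz hz1
      lin' := fun z hz hz1 => h.symm.lin_aux h2 z hz hz1 }⟩

end Crest.Agent.MilnorRec
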