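import Mathlib
import Crest.Prelude.Def_MilnorK
import Crest.Agent.MilnorRec.Basic
import Crest.Agent.MilnorRec.PB
import Crest.Agent.MilnorRec.Deriv
import Crest.Agent.MilnorRec.DerivAPI

/-!
Row 9 (S0010), task C: dictionary between `KOne`, `cls`, `steinberg` of the Prelude and the elementary
predicates `IsPP`, `Rel`, `Adj`.

Main point `adj_of_tmul_mem_steinberg`: for derivations `D₁ D₂` of `L` let `δᵢ : KOne L p →ₗ[ZMod p] L`,
`δᵢ [u] = Dᵢ u / u` (additive, kills `p`-th powers; `L` is a `ZMod p`-module via `ZMod.algebra L p`;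
`AddMonoidHom.toZModLinearMap`).  `B := lift (δ₁ ⊗ δ₂ - δ₂ ⊗ δ₁) : KOne ⊗ KOne →ₗ L` kills every generator
`[f] ⊗ [1 - f]`, hence `steinberg L p`.  If `z ∉ L^p` and `w ∉ L^p[z]` take `D₁ z = z`
(`exists_derivation_of_not_isPP`) and `D₂ z = 0`, `D₂ w = w` (`exists_derivation_of_not_adj`): then
`B ([z] ⊗ [w]) = 1 ≠ 0`.
-/

set_option linter.unusedSectionVars false

namespace Crest.Agent.MilnorRec

open Finset TensorProduct Crest.NumberTheoryR.MilnorK

variable {L : Type*} [Field L] {p : ℕ} [Fact p.Prime] [CharP L p]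

theorem cls_surjective (x : KOne L p) : ∃ u : Lˣ, cls L p u = x := by
  obtain ⟨a, rfl⟩ := QuotientAddGroup.mk_surjective x
  exact ⟨Additive.toMul a, rfl⟩

theorem cls_mul (u v : Lˣ) : cls L p (u * v) = cls L p u + cls L p v := rfl

theorem cls_one : cls L p (1 : Lˣ) = 0 := rfl

theorem cls_inv (u : Lˣ) : cls L p u⁻¹ = - cls L p u := rfl

theorem cls_pow (u : Lˣ) (n : ℕ) : cls L p (u ^ n) = n • cls L p u := by
  induction n with
  | zero => simp [cls_one]
  | succ n ih => rw [pow_succ, cls_mul, ih, succ_nsmul]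

theorem cls_eq_zero_iff (u : Lˣ) : cls L p u = 0 ↔ IsPP p (u : L) := by
  unfold cls
  rw [QuotientAddGroup.eq_zero_iff]
  constructor
  · rintro ⟨a, ha⟩
    refine ⟨((Additive.toMul a : Lˣ) : L), ?_⟩
    have h2 : (Additive.toMul a : Lˣ) ^ p = u := by
      have := congrArg Additive.toMul ha
      simpa using this
    rw [← h2]
    simp
  · rintro ⟨b, hb⟩
    have hb0 : b ≠ 0 := by
      rintro rfl
      have hp : p ≠ 0 := (Fact.out : p.Prime).ne_zero
      rw [zero_pow hp] at hb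
      exact u.ne_zero hb.symm
    refine ⟨Additive.ofMul (Units.mk0 b hb0), ?_⟩
    have h2 : (Units.mk0 b hb0) ^ p = u := by
      ext
      simpa using hb
    rw [← h2]
    rfl

theorem cls_eq_cls_iff (u v : Lˣ) : cls L p u = cls L p v ↔ Rel p (u : L) (v : L) := by
  have h1 : cls L p u = cls L p v ↔ cls L p (u * v⁻¹) = 0 := by
    rw [cls_mul, cls_inv, ← sub_eq_add_neg, sub_eq_zero]
  rw [h1, cls_eq_zero_iff]
  constructor
  · rintro ⟨b, hb⟩
    have hv : (v : L) ≠ 0 := v.ne_zero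
    have hu : (u : L) ≠ 0 := u.ne_zero
    have hb' : b ^ p = (u : L) * (v : L)⁻¹ := by simpa using hb
    refine ⟨b, ?_, ?_⟩
    · rintro rfl
      have hp : p ≠ 0 := (Fact.out : p.Prime).ne_zero
      rw [zero_pow hp] at hb'
      exact (mul_ne_zero hu (inv_ne_zero hv)) hb'.symm
    · rw [hb']
      field_simp
  · rintro ⟨r, _, hr⟩
    refine ⟨r, ?_⟩
    have hv : (v : L) ≠ 0 := v.ne_zero
    simp only [Units.val_mul, Units.val_inv_eq_inv_val]
    rw [hr]
    field_simp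

theorem natCast_smul_cls (n : ℕ) (u : Lˣ) : (n : ZMod p) • cls L p u = cls L p (u ^ n) := by
  rw [cls_pow, Nat.cast_smul_eq_nsmul]

theorem zmod_smul_cls (c : ZMod p) (u : Lˣ) : c • cls L p u = cls L p (u ^ c.val) := by
  rw [← natCast_smul_cls, ZMod.natCast_zmod_val]

/-- `[z] ⊗ [1 + z]` is a Steinberg element (`f = -z`, `[-z] = [z]` because `-1 = (-1)^p`). -/
theorem tmul_one_add_mem_steinberg (z : L) (hz : z ≠ 0) (hz1 : 1 + z ≠ 0) :
    cls L p (Units.mk0 z hz) ⊗ₜ[ZMod p] cls L p (Units.mk0 (1 + z) hz1) ∈ steinberg L p := by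
  have hnz : -z ≠ 0 := neg_ne_zero.mpr hz
  have hnz1 : 1 - -z ≠ 0 := by rwa [sub_neg_eq_add]
  have h1 : cls L p (Units.mk0 z hz) = cls L p (Units.mk0 (-z) hnz) := by
    rw [cls_eq_cls_iff]
    have h2 : Rel p ((-1 : L) * (-z)) (-z) :=
      rel_mul_left_of_isPP (neg_ne_zero.mpr one_ne_zero) (IsPP.neg isPP_one)
    simpa using h2
  have h3 : Units.mk0 (1 + z) hz1 = Units.mk0 (1 - -z) hnz1 := by
    ext
    simp
  rw [h1, h3]
  exact Submodule.subset_span ⟨-z, hnz, hnz1, rfl⟩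

/-- the logarithmic derivative as an additive map on `Additive Lˣ` -/
noncomputable def dlogAux (D : Derivation ℤ L L) : Additive Lˣ →+ L where
  toFun u := D ((Additive.toMul u : Lˣ) : L) / ((Additive.toMul u : Lˣ) : L)
  map_zero' := by simp
  map_add' u v := by
    have hu : ((Additive.toMul u : Lˣ) : L) ≠ 0 := Units.ne_zero _
    have hv : ((Additive.toMul v : Lˣ) : L) ≠ 0 := Units.ne_zero _
    simp only [toMul_add, Units.val_mul, Derivation.leibniz, smul_eq_mul]
    field_simp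
    ring

/-- the logarithmic derivative on `KOne L p` -/
noncomputable def dlogHom (D : Derivation ℤ L L) : KOne L p →+ L :=
  QuotientAddGroup.lift (pMultiples L p) (dlogAux D) (by
    rintro _ ⟨a, rfl⟩
    simp only [nsmulAddMonoidHom_apply]
    rw [AddMonoidHom.mem_ker, map_nsmul, nsmul_eq_mul, CharP.cast_eq_zero L p, zero_mul])

theorem dlogHom_cls (D : Derivation ℤ L L) (u : Lˣ) :
    dlogHom (p := p) D (cls L p u) = D (u : L) / (u : L) := rfl

theorem adj_of_tmul_mem_steinberg (z w : Lˣ)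
    (h : cls L p z ⊗ₜ[ZMod p] cls L p w ∈ steinberg L p) : IsPP p (z : L) ∨ Adj p (z : L) (w : L) := by
  by_contra hcon
  rw [not_or] at hcon
  obtain ⟨hz, hw⟩ := hcon
  obtain ⟨D₁, hD₁⟩ := exists_derivation_of_not_isPP hz
  obtain ⟨D₂, hD₂z, hD₂w⟩ := exists_derivation_of_not_adj hw
  let _ : Algebra (ZMod p) L := ZMod.algebra L p
  let δ₁ : KOne L p →ₗ[ZMod p] L := (dlogHom (p := p) D₁).toZModLinearMap p
  let δ₂ : KOne L p →ₗ[ZMod p] L := (dlogHom (p := p) D₂).toZModLinearMap p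
  let B : KOne L p ⊗[ZMod p] KOne L p →ₗ[ZMod p] L :=
    TensorProduct.lift ((LinearMap.mul (ZMod p) L).compl₁₂ δ₁ δ₂) -
      TensorProduct.lift ((LinearMap.mul (ZMod p) L).compl₁₂ δ₂ δ₁)
  have hB : ∀ u v : Lˣ, B (cls L p u ⊗ₜ[ZMod p] cls L p v) =
      (D₁ (u : L) / (u : L)) * (D₂ (v : L) / (v : L)) -
        (D₂ (u : L) / (u : L)) * (D₁ (v : L) / (v : L)) := by
    intro u v
    simp only [B, LinearMap.sub_apply, TensorProduct.lift.tmul, LinearMap.compl₁₂_apply,
      LinearMap.mul_apply']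
    rfl
  have hker : steinberg L p ≤ LinearMap.ker B := by
    unfold steinberg
    rw [Submodule.span_le]
    rintro _ ⟨f, hf, hf1, rfl⟩
    rw [SetLike.mem_coe, LinearMap.mem_ker, hB]
    have h1 : D₁ (1 : L) = 0 := D₁.map_one_eq_zero
    have h2 : D₂ (1 : L) = 0 := D₂.map_one_eq_zero
    simp only [Units.val_mk0, map_sub, h1, h2, zero_sub]
    field_simp
    ring
  have h0 : B (cls L p z ⊗ₜ[ZMod p] cls L p w) = 0 := hker h
  rw [hB, hD₁, hD₂z, hD₂w, div_self z.ne_zero, div_self w.ne_zero] at h0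
  simp at h0

variable {K : Type*} [Field K] [CharP K p]

theorem IsCompatible.symm {Θ : KOne K p ≃ₗ[ZMod p] KOne L p} (h : IsCompatible Θ) :
    IsCompatible Θ.symm := by
  unfold IsCompatible at h ⊢
  rw [← h, ← Submodule.map_comp, ← TensorProduct.map_comp]
  simp

theorem IsCompatible.tmul_mem {Θ : KOne K p ≃ₗ[ZMod p] KOne L p} (h : IsCompatible Θ)
    {a b : KOne K p} (hab : a ⊗ₜ[ZMod p] b ∈ steinberg K p) :
    Θ a ⊗ₜ[ZMod p] Θ b ∈ steinberg L p := by
  unfold IsCompatible at h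
  rw [← h]
  exact ⟨a ⊗ₜ[ZMod p] b, hab, by simp⟩

end Crest.Agent.MilnorRec
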