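import Mathlib
import Crest.Prelude.Def_MilnorK
import Crest.Agent.MilnorRec.Basic
import Crest.Agent.MilnorRec.Steinberg
import Crest.Agent.MilnorRec.Pair

/-!
Row 9 (S0010), task D0: a compatible `Θ` has representative-level data.
`θ u := if h : u = 0 then 0 else (a chosen v with Θ (cls (mk0 u h)) = cls v)`.
-/

namespace Crest.Agent.MilnorRec

open Finset TensorProduct Crest.NumberTheoryR.MilnorK

variable {K : Type*} [Field K] {L : Type*} [Field L] {p : ℕ} [Fact p.Prime] [CharP K p] [CharP L p]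

/-- chosen representatives of a map `KOne K p → KOne L p` -/
noncomputable def rep (Θ : KOne K p → KOne L p) (u : K) : L :=
  open Classical in
  if h : u = 0 then 0 else ((cls_surjective (Θ (cls K p (Units.mk0 u h)))).choose : L)

omit [CharP K p] in
theorem rep_spec (Θ : KOne K p → KOne L p) (u : Kˣ) :
    ∃ v : Lˣ, (v : L) = rep Θ (u : K) ∧ cls L p v = Θ (cls K p u) := by
  refine ⟨(cls_surjective (Θ (cls K p (Units.mk0 (u : K) u.ne_zero)))).choose, ?_, ?_⟩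
  · unfold rep
    rw [dif_neg u.ne_zero]
  · have := (cls_surjective (Θ (cls K p (Units.mk0 (u : K) u.ne_zero)))).choose_spec
    rw [this, Units.mk0_val]

omit [CharP K p] in
theorem rep_spec' (Θ : KOne K p → KOne L p) {u : K} (hu : u ≠ 0) :
    ∃ v : Lˣ, (v : L) = rep Θ u ∧ cls L p v = Θ (cls K p (Units.mk0 u hu)) :=
  rep_spec Θ (Units.mk0 u hu)

theorem rep_mult (Θ : KOne K p →ₗ[ZMod p] KOne L p) : Mult p (rep (Θ : KOne K p → KOne L p)) := by
  refine ⟨?_, ?_, ?_⟩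
  · intro u hu
    obtain ⟨v, hv, -⟩ := rep_spec' (Θ : KOne K p → KOne L p) hu
    rw [← hv]
    exact v.ne_zero
  · intro u v hu hv
    obtain ⟨a, ha, ha'⟩ := rep_spec' (Θ : KOne K p → KOne L p) hu
    obtain ⟨b, hb, hb'⟩ := rep_spec' (Θ : KOne K p → KOne L p) hv
    obtain ⟨c, hc, hc'⟩ := rep_spec' (Θ : KOne K p → KOne L p) (mul_ne_zero hu hv)
    rw [← ha, ← hb, ← hc, ← Units.val_mul, ← cls_eq_cls_iff, cls_mul, ha', hb', hc', ← map_add,
      ← cls_mul]
    congr 2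
    ext
    simp
  · intro u hu hpp
    obtain ⟨a, ha, ha'⟩ := rep_spec' (Θ : KOne K p → KOne L p) hu
    rw [← ha, ← cls_eq_zero_iff, ha']
    have : cls K p (Units.mk0 u hu) = 0 := by
      rw [cls_eq_zero_iff]
      exact hpp
    rw [this, map_zero]

theorem rep_left_inv (Θ : KOne K p ≃ₗ[ZMod p] KOne L p) (u : K) (hu : u ≠ 0) :
    Rel p (rep (Θ.symm : KOne L p → KOne K p) (rep (Θ : KOne K p → KOne L p) u)) u := by
  obtain ⟨a, ha, ha'⟩ := rep_spec' (Θ : KOne K p → KOne L p) hu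
  obtain ⟨b, hb, hb'⟩ := rep_spec (Θ.symm : KOne L p → KOne K p) a
  rw [← ha, ← hb]
  have : Rel p (b : K) ((Units.mk0 u hu : Kˣ) : K) := by
    rw [← cls_eq_cls_iff, hb', ha', LinearEquiv.symm_apply_apply]
  simpa using this

theorem rep_stein (Θ : KOne K p ≃ₗ[ZMod p] KOne L p) (hΘ : IsCompatible Θ) (z : K) (hz : z ≠ 0)
    (hz1 : 1 + z ≠ 0) :
    IsPP p (rep (Θ : KOne K p → KOne L p) z) ∨
      Adj p (rep (Θ : KOne K p → KOne L p) z) (rep (Θ : KOne K p → KOne L p) (1 + z)) := by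
  obtain ⟨a, ha, ha'⟩ := rep_spec' (Θ : KOne K p → KOne L p) hz
  obtain ⟨b, hb, hb'⟩ := rep_spec' (Θ : KOne K p → KOne L p) hz1
  rw [← ha, ← hb]
  apply adj_of_tmul_mem_steinberg
  rw [ha', hb']
  exact IsCompatible.tmul_mem hΘ (tmul_one_add_mem_steinberg z hz hz1)

theorem exists_pair (Θ : KOne K p ≃ₗ[ZMod p] KOne L p) (hΘ : IsCompatible Θ) :
    ∃ (θ : K → L) (θ' : L → K), Pair p θ θ' ∧
      ∀ (u : Kˣ) (v : Lˣ), Θ (cls K p u) = cls L p v ↔ Rel p (θ (u : K)) (v : L) := by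
  refine ⟨rep (Θ : KOne K p → KOne L p), rep (Θ.symm : KOne L p → KOne K p), ?_, ?_⟩
  · refine ⟨⟨rep_mult Θ.toLinearMap, rep_mult Θ.symm.toLinearMap, rep_left_inv Θ, ?_⟩,
      rep_stein Θ hΘ, rep_stein Θ.symm (IsCompatible.symm hΘ)⟩
    have := rep_left_inv Θ.symm
    simpa using this
  · intro u v
    obtain ⟨a, ha, ha'⟩ := rep_spec (Θ : KOne K p → KOne L p) u
    rw [← ha, ← ha', cls_eq_cls_iff]

end Crest.Agent.MilnorRec
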